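import Vale.Agent.P184.Good

set_option linter.unusedSectionVars false

namespace Vale.Agent.P184

section

variable {X : Type*} [MetricSpace X]

/-- Reshetnyak's quadrilateral inequality. -/
lemma quadrilateral (hX : IsCAT0 X) (a b c d : X) :
    dist a c ^ 2 + dist b d ^ 2 ≤ dist a d ^ 2 + dist b c ^ 2 + 2 * (dist a b * dist c d) := by
  rcases eq_or_ne a b with rfl | hab
  · simp; linarith
  rcases eq_or_ne c d with rfl | hcd
  · simp
  have hA : 0 < dist a b := dist_pos.2 hab
  have hC : 0 < dist c d := dist_pos.2 hcd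
  set A := dist a b with hAdef
  set C := dist c d with hCdef
  have hAC : 0 < A + C := by positivity
  obtain ⟨m, hm⟩ := hX b d (A / (A + C)) ⟨by positivity, by rw [div_le_one hAC]; linarith⟩
  have h1 := hm a
  have h2 := hm c
  have htri : dist a c ≤ dist a m + dist c m := by
    have := dist_triangle a m c
    rwa [dist_comm m c] at this
  rw [← hAdef] at h1
  rw [← hCdef, dist_comm c b] at h2
  have e1 : 1 - A / (A + C) = C / (A + C) := by field_simp; ring
  rw [e1] at h1 h2
  set u := dist a m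
  set v := dist c m
  have hu : 0 ≤ u := dist_nonneg
  have hv : 0 ≤ v := dist_nonneg
  -- multiply out
  have h1' : (A + C) ^ 2 * u ^ 2 ≤ (A + C) * C * A ^ 2 + (A + C) * A * dist a d ^ 2
      - A * C * dist b d ^ 2 := by
    have := mul_le_mul_of_nonneg_left h1 (by positivity : 0 ≤ (A + C) ^ 2)
    refine this.trans (le_of_eq ?_)
    field_simp
  have h2' : (A + C) ^ 2 * v ^ 2 ≤ (A + C) * C * dist b c ^ 2 + (A + C) * A * C ^ 2
      - A * C * dist b d ^ 2 := by
    have := mul_le_mul_of_nonneg_left h2 (by positivity : 0 ≤ (A + C) ^ 2)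
    refine this.trans (le_of_eq ?_)
    field_simp
  have h3 : dist a c ^ 2 ≤ (u + v) ^ 2 := by
    exact pow_le_pow_left₀ dist_nonneg htri 2
  -- (u+v)^2 * A * C ≤ (A + C) * (C * u^2 + A * v^2)
  have h4 : (u + v) ^ 2 * (A * C) ≤ (A + C) * (C * u ^ 2 + A * v ^ 2) := by
    nlinarith [sq_nonneg (C * u - A * v)]
  have h5 : (A + C) * (dist a c ^ 2 * (A * C)) ≤ (A + C) * (A * C) *
      (dist a d ^ 2 + dist b c ^ 2 + 2 * (A * C) - dist b d ^ 2) := by
    calc (A + C) * (dist a c ^ 2 * (A * C)) ≤ (A + C) * ((u + v) ^ 2 * (A * C)) := by gcongr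
      _ ≤ (A + C) * ((A + C) * (C * u ^ 2 + A * v ^ 2)) := by gcongr
      _ = C * ((A + C) ^ 2 * u ^ 2) + A * ((A + C) ^ 2 * v ^ 2) := by ring
      _ ≤ C * ((A + C) * C * A ^ 2 + (A + C) * A * dist a d ^ 2 - A * C * dist b d ^ 2) +
          A * ((A + C) * C * dist b c ^ 2 + (A + C) * A * C ^ 2 - A * C * dist b d ^ 2) := by gcongr
      _ = _ := by ring
  have h6 : dist a c ^ 2 ≤ dist a d ^ 2 + dist b c ^ 2 + 2 * (A * C) - dist b d ^ 2 := by
    have hpos : 0 < (A + C) * (A * C) := by positivity
    refine le_of_mul_le_mul_left ?_ hpos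
    linarith
  linarith

lemma quad_abs (hX : IsCAT0 X) (y y' p q : X) :
    |(dist y p - dist y' p) - (dist y q - dist y' q)| * (dist y p + dist y' p) ≤
      4 * (dist y y' * dist p q) := by
  have h1 := quadrilateral hX y y' p q
  have h2 := quadrilateral hX y' y p q
  rw [dist_comm y' y] at h2
  have h3 : |dist y q - dist y' q| ≤ dist y y' := abs_dist_sub_le _ _ _
  have h4 : |dist y q - dist y p| ≤ dist p q := by
    have := abs_dist_sub_le q p y
    rwa [dist_comm q y, dist_comm p y, dist_comm q p] at this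
  have h5 : |dist y' q - dist y' p| ≤ dist p q := by
    have := abs_dist_sub_le q p y'
    rwa [dist_comm q y', dist_comm p y', dist_comm q p] at this
  set α := dist y p
  set β := dist y' p
  set γ := dist y q
  set δ := dist y' q
  set R := dist y y'
  set S := dist p q
  have hα : 0 ≤ α := dist_nonneg
  have hβ : 0 ≤ β := dist_nonneg
  have hR : 0 ≤ R := dist_nonneg
  have hS : 0 ≤ S := dist_nonneg
  have h6 : |(α ^ 2 - β ^ 2) - (γ ^ 2 - δ ^ 2)| ≤ 2 * (R * S) := by
    rw [abs_le]; constructor <;> linarith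
  have h7 : |(γ - δ) * ((γ - α) + (δ - β))| ≤ R * (S + S) := by
    rw [abs_mul]
    refine mul_le_mul h3 ((abs_add_le _ _).trans (add_le_add h4 h5)) (abs_nonneg _) hR
  have h8 : ((α - β) - (γ - δ)) * (α + β) =
      ((α ^ 2 - β ^ 2) - (γ ^ 2 - δ ^ 2)) + (γ - δ) * ((γ - α) + (δ - β)) := by ring
  calc |(α - β) - (γ - δ)| * (α + β) = |((α - β) - (γ - δ)) * (α + β)| := by
        rw [abs_mul, abs_of_nonneg (add_nonneg hα hβ)]
    _ = |((α ^ 2 - β ^ 2) - (γ ^ 2 - δ ^ 2)) + (γ - δ) * ((γ - α) + (δ - β))| := by rw [h8]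
    _ ≤ 2 * (R * S) + R * (S + S) := (abs_add_le _ _).trans (add_le_add h6 h7)
    _ = 4 * (R * S) := by ring

end

variable {G : Type*} [Group G] {X : Type*} [MetricSpace X] [MulAction G X]

/-- An isometry of a CAT(0) space of positive stable translation length is good, for every group
acting by isometries. -/
theorem good_of_cat0 (hX : IsCAT0 X) (hiso : ∀ (g : G) (x y : X), dist (g • x) (g • y) = dist x y)
    {g : G} (x₀ : X) (c : ℝ) (hc : 0 < c) (hg : ∀ n : ℕ, c * n ≤ dist x₀ (g ^ n • x₀)) : Good g := by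
  set D : ℕ → ℝ := fun n => dist x₀ (g ^ n • x₀) with hD
  -- frequently large increments
  have hfreq : ∃ᶠ n in Filter.atTop, c / 2 ≤ D n - D (n - 1) := by
    intro hcon
    rw [Filter.eventually_atTop] at hcon
    obtain ⟨M, hM⟩ := hcon
    have h1 : ∀ k : ℕ, D (M + k) ≤ D M + k * (c / 2) := by
      intro k
      induction k with
      | zero => simp
      | succ k ih =>
        have := hM (M + (k + 1)) (by omega)
        have h2 : M + (k + 1) - 1 = M + k := by omega
        simp only [h2, not_le] at this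
        push_cast
        linarith
    obtain ⟨k, hk⟩ := exists_nat_gt (D M / (c / 2))
    have h2 := h1 k
    have h3 := hg (M + k)
    rw [div_lt_iff₀ (by positivity)] at hk
    push_cast at h3
    have h4 : 0 ≤ c * M := by positivity
    change c * (M + k) ≤ D (M + k) at h3
    nlinarith
  set S : Set ℕ := {n | c / 2 ≤ D n - D (n - 1)} with hS
  have hne : (Filter.atTop ⊓ Filter.principal S).NeBot := by
    rw [← Filter.frequently_mem_iff_neBot]
    exact hfreq
  let U : Ultrafilter ℕ := Ultrafilter.of (Filter.atTop ⊓ Filter.principal S)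
  have hU : (U : Filter ℕ) ≤ Filter.atTop ⊓ Filter.principal S := Ultrafilter.of_le _
  have hUtop : (U : Filter ℕ) ≤ Filter.atTop := hU.trans inf_le_left
  have hUS : ∀ᶠ n in (U : Filter ℕ), n ∈ S := (hU.trans inf_le_right) (Filter.mem_principal_self S)
  -- limits along the ultrafilter
  have hlim : ∀ y : X, ∃ l : ℝ, Filter.Tendsto (fun n : ℕ => dist y (g ^ n • x₀) - dist x₀ (g ^ n • x₀)) U
      (nhds l) := by
    intro y
    have hmem : ∀ n : ℕ, dist y (g ^ n • x₀) - dist x₀ (g ^ n • x₀) ∈ Set.Icc (-dist y x₀) (dist y x₀) := by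
      intro n
      have := abs_dist_sub_le y x₀ (g ^ n • x₀)
      rw [abs_le] at this
      exact this
    have hcomp : IsCompact (Set.Icc (-dist y x₀) (dist y x₀)) := isCompact_Icc
    have hle : ((U.map fun n : ℕ => dist y (g ^ n • x₀) - dist x₀ (g ^ n • x₀) : Ultrafilter ℝ) : Filter ℝ) ≤
        Filter.principal (Set.Icc (-dist y x₀) (dist y x₀)) := by
      rw [Filter.le_principal_iff]
      exact Filter.mem_map.2 (Filter.univ_mem' hmem)
    obtain ⟨l, _, hl⟩ := hcomp.ultrafilter_le_nhds _ hle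
    exact ⟨l, hl⟩
  choose b hb using hlim
  have hbdiff : ∀ y y' : X, Filter.Tendsto (fun n : ℕ => dist y (g ^ n • x₀) - dist y' (g ^ n • x₀)) U
      (nhds (b y - b y')) := by
    intro y y'
    have := (hb y).sub (hb y')
    refine this.congr fun n => ?_
    ring
  -- comparison of the two Busemann differences
  have hcomp : ∀ (z : G), z ∈ Subgroup.centralizer {g} → ∀ y y' : X,
      b (z • y) - b (z • y') = b y - b y' := by
    intro z hz y y'
    have hzc : Commute z g := Subgroup.mem_centralizer_singleton_iff.1 hz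
    have h1 := hbdiff (z • y) (z • y')
    have h2 := hbdiff y y'
    have h3 : ∀ (n : ℕ) (w : X), dist (z • w) (g ^ n • x₀) = dist w (g ^ n • (z⁻¹ • x₀)) := by
      intro n w
      have : g ^ n • x₀ = z • (g ^ n • (z⁻¹ • x₀)) := by
        rw [smul_smul, smul_smul, (hzc.pow_right n).eq, mul_assoc, mul_inv_cancel, mul_one]
      rw [this, hiso]
    simp_rw [h3] at h1
    -- difference tends to zero
    have h4 : Filter.Tendsto (fun n : ℕ => (dist y (g ^ n • x₀) - dist y' (g ^ n • x₀)) -
        (dist y (g ^ n • (z⁻¹ • x₀)) - dist y' (g ^ n • (z⁻¹ • x₀)))) Filter.atTop (nhds 0) := by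
      set R := 4 * (dist y y' * dist x₀ (z⁻¹ • x₀)) with hR
      have hden : Filter.Tendsto (fun n : ℕ => c * (n : ℝ) - dist x₀ y) Filter.atTop Filter.atTop := by
        refine Filter.tendsto_atTop_add_const_right _ _ ?_
        exact Filter.Tendsto.const_mul_atTop hc tendsto_natCast_atTop_atTop
      have hbound : Filter.Tendsto (fun n : ℕ => R / (c * (n : ℝ) - dist x₀ y)) Filter.atTop (nhds 0) :=
        hden.const_div_atTop R
      refine squeeze_zero_norm' ?_ hbound
      filter_upwards [hden.eventually_gt_atTop 0] with n hn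
      rw [Real.norm_eq_abs, le_div_iff₀ hn]
      have hq := quad_abs hX y y' (g ^ n • x₀) (g ^ n • (z⁻¹ • x₀))
      rw [hiso] at hq
      refine le_trans ?_ hq
      refine mul_le_mul_of_nonneg_left ?_ (abs_nonneg _)
      have h5 := hg n
      have h6 := dist_triangle x₀ y (g ^ n • x₀)
      have h7 : 0 ≤ dist y' (g ^ n • x₀) := dist_nonneg
      linarith
    have h5 := (h2.sub h1)
    have h6 := tendsto_nhds_unique h5 (h4.mono_left hUtop)
    linarith
  refine ⟨fun k => b (k • x₀), fun x => dist (x • x₀) x₀, ?_, ?_, ?_⟩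
  · intro z hz k x
    have := hcomp z hz (k • x₀) (x • x₀)
    rwa [smul_smul, smul_smul] at this
  · intro x k
    have h1 := hbdiff ((k * x) • x₀) (k • x₀)
    refine le_of_tendsto h1.abs (Filter.Eventually.of_forall fun n => ?_)
    refine (abs_dist_sub_le _ _ _).trans (le_of_eq ?_)
    rw [mul_smul, hiso]
  · have h1 := hbdiff (g • x₀) ((1 : G) • x₀)
    have h2 : b (g • x₀) - b ((1 : G) • x₀) ≤ - (c / 2) := by
      refine le_of_tendsto h1 ?_
      filter_upwards [hUS, hUtop (Filter.eventually_ge_atTop 1)] with n hn hn1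
      have h3 : dist (g • x₀) (g ^ n • x₀) = D (n - 1) := by
        obtain ⟨m, rfl⟩ : ∃ m, n = m + 1 := ⟨n - 1, by omega⟩
        rw [pow_succ', mul_smul, hiso]
        simp [hD]
      rw [h3, one_smul]
      have : c / 2 ≤ D n - D (n - 1) := hn
      change D (n - 1) - D n ≤ _
      linarith
    intro h
    simp only at h
    rw [h] at h2
    linarith

end Vale.Agent.P184
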