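import Vale.Agent.P184.Cat

set_option linter.unusedSectionVars false

namespace Vale.Agent.P184

variable {G : Type*} [Group G]

theorem l1Bass_of_good (h : ∀ g : G, ¬ IsOfFinOrder g → Good g)
    (hfin : {C : ConjClasses G | ∃ g : G, IsOfFinOrder g ∧ ConjClasses.mk g = C}.Finite) :
    L1Bass G := by
  intro q e he
  refine ⟨_, hfin, ?_, ?_⟩
  · rintro g ⟨g', hg', hgg'⟩
    rw [ConjClasses.mk_eq_mk_iff_isConj] at hgg'
    obtain ⟨c, hc⟩ := isConj_iff.1 hgg'
    rw [← hc]
    have : c * g' * c⁻¹ = MulAut.conj c g' := rfl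
    rw [this]
    exact (MulAut.conj c).toMonoidHom.isOfFinOrder hg'
  · intro g hg
    by_cases hgf : IsOfFinOrder g
    · exact absurd ⟨g, hgf, rfl⟩ hg
    · exact (h g hgf).coeff_eq_zero he

variable {X : Type*} [MetricSpace X] [MulAction G X]

/-- displacement doubling -/
lemma disp_double (hX : IsCAT0 X) (hiso : ∀ (g : G) (x y : X), dist (g • x) (g • y) = dist x y)
    {g : G} {δ : ℝ} (hδ : ∀ x : X, δ ≤ dist x (g • x)) (y : X) : 2 * δ ≤ dist y (g ^ 2 • y) := by
  obtain ⟨m, hm⟩ := hX y (g • y) (1 / 2) ⟨by norm_num, by norm_num⟩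
  have hm' : ∀ x : X, dist x (g • m) ^ 2 ≤ (1 - 1 / 2) * dist x (g • y) ^ 2 +
      1 / 2 * dist x (g ^ 2 • y) ^ 2 - 1 / 2 * (1 - 1 / 2) * dist y (g • y) ^ 2 := by
    intro x
    have := hm (g⁻¹ • x)
    have e : ∀ w : X, dist (g⁻¹ • x) w = dist x (g • w) := by
      intro w
      rw [← hiso g (g⁻¹ • x) w, smul_inv_smul]
    rw [e, e, e, smul_smul, ← pow_two] at this
    exact this
  have h1 := hm' m
  have h2 := hm (g • y)
  have h3 := hm (g ^ 2 • y)
  rw [dist_self, dist_comm (g • y) y, dist_comm (g • y) m] at h2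
  have h4 : dist (g ^ 2 • y) (g • y) = dist y (g • y) := by
    rw [pow_two, mul_smul, hiso, dist_comm]
  rw [h4, dist_comm (g ^ 2 • y) y, dist_comm (g ^ 2 • y) m] at h3
  have h5 : dist m (g • m) ^ 2 ≤ (dist y (g ^ 2 • y) / 2) ^ 2 := by nlinarith
  have h6 : dist m (g • m) ≤ dist y (g ^ 2 • y) / 2 := by
    exact le_of_sq_le_sq h5 (by positivity)
  linarith [hδ m]

lemma disp_pow (hX : IsCAT0 X) (hiso : ∀ (g : G) (x y : X), dist (g • x) (g • y) = dist x y)
    {g : G} {δ : ℝ} (hδ : ∀ x : X, δ ≤ dist x (g • x)) (k : ℕ) (y : X) :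
    2 ^ k * δ ≤ dist y (g ^ (2 ^ k) • y) := by
  induction k generalizing g δ with
  | zero => simpa using hδ y
  | succ k ih =>
    have := ih (g := g ^ 2) (δ := 2 * δ) (disp_double hX hiso hδ)
    rw [← pow_mul, ← pow_succ'] at this
    rw [pow_succ]
    linarith

lemma dist_pow_le (hiso : ∀ (g : G) (x y : X), dist (g • x) (g • y) = dist x y) (g : G) (y : X)
    (n : ℕ) : dist y (g ^ n • y) ≤ n * dist y (g • y) := by
  induction n with
  | zero => simp
  | succ n ih =>
    refine (dist_triangle y (g ^ n • y) _).trans ?_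
    have : dist (g ^ n • y) (g ^ (n + 1) • y) = dist y (g • y) := by
      rw [pow_succ, mul_smul, hiso]
    rw [this]; push_cast; linarith

/-- A lower bound for the displacement gives linear growth of orbits. -/
lemma linear_growth (hX : IsCAT0 X) (hiso : ∀ (g : G) (x y : X), dist (g • x) (g • y) = dist x y)
    {g : G} {δ : ℝ} (hδ : ∀ x : X, δ ≤ dist x (g • x)) (y : X) (n : ℕ) :
    δ * n ≤ dist y (g ^ n • y) := by
  by_contra hcon
  push Not at hcon
  rcases Nat.eq_zero_or_pos n with rfl | hn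
  · simp at hcon
  -- `2^k δ ≤ (2^k / n) D(n) + n D(1)`
  set D := dist y (g ^ n • y) with hD
  set D1 := dist y (g • y) with hD1
  have key : ∀ k : ℕ, (2 : ℝ) ^ k * (δ * n - D) ≤ n * (n * D1) := by
    intro k
    have h1 := disp_pow hX hiso hδ k y
    set a := 2 ^ k / n with ha
    set r := 2 ^ k % n with hr
    have hdiv : 2 ^ k = n * a + r := (Nat.div_add_mod _ _).symm
    have hrn : r < n := Nat.mod_lt _ hn
    have h2 : dist y (g ^ (2 ^ k) • y) ≤ a * D + r * D1 := by
      rw [hdiv, pow_add, pow_mul, mul_smul]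
      refine (dist_triangle y ((g ^ n) ^ a • y) _).trans ?_
      refine add_le_add (dist_pow_le hiso (g ^ n) y a) ?_
      rw [hiso]
      exact dist_pow_le hiso g y r
    have h3 : (r : ℝ) * D1 ≤ n * D1 := by
      have : (r : ℝ) ≤ n := by exact_mod_cast hrn.le
      exact mul_le_mul_of_nonneg_right this dist_nonneg
    have h4 : (n : ℝ) * a ≤ 2 ^ k := by
      have : n * a ≤ 2 ^ k := by omega
      exact_mod_cast this
    have h5 : (n : ℝ) * a * D ≤ 2 ^ k * D := mul_le_mul_of_nonneg_right h4 dist_nonneg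
    have hn' : (0 : ℝ) < n := by exact_mod_cast hn
    have h6 : n * (2 ^ k * δ) ≤ n * (a * D + n * D1) := by
      refine mul_le_mul_of_nonneg_left ?_ hn'.le
      linarith
    linarith
  have hpos : 0 < δ * n - D := by linarith
  obtain ⟨k, hk⟩ := pow_unbounded_of_one_lt (n * (n * D1) / (δ * n - D)) (one_lt_two (α := ℝ))
  rw [div_lt_iff₀ hpos] at hk
  linarith [key k]

/-- dichotomy for elements of a group acting geometrically -/
lemma dichotomy [ProperSpace X] (hG : IsGeometricAction G X) {K : Set X} (hK : IsCompact K)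
    (hcov : ∀ x : X, ∃ g : G, g • x ∈ K) (g : G) :
    (∃ δ : ℝ, 0 < δ ∧ ∀ x : X, δ ≤ dist x (g • x)) ∨ ∃ γ : G, IsConj g γ ∧ ∃ y ∈ K, γ • y = y := by
  classical
  by_cases hex : ∃ γ : G, IsConj g γ ∧ ∃ y ∈ K, γ • y = y
  · exact Or.inr hex
  left
  push Not at hex
  set K' := Metric.cthickening 1 K with hK'
  have hK'c : IsCompact K' := hK.cthickening
  have hfin := hG.proper K' hK'c
  -- positive lower bound for each element
  have hlow : ∀ γ : G, ∃ δ : ℝ, 0 < δ ∧ (IsConj g γ → ∀ y ∈ K, δ ≤ dist y (γ • y)) := by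
    intro γ
    by_cases hγ : IsConj g γ
    · rcases K.eq_empty_or_nonempty with rfl | hne
      · exact ⟨1, one_pos, fun _ y hy => absurd hy (Set.notMem_empty y)⟩
      have hcont : Continuous fun y : X => dist y (γ • y) := by
        have : Isometry fun y : X => γ • y := Isometry.of_dist_eq (hG.isometry γ)
        exact continuous_id.dist this.continuous
      obtain ⟨y₀, hy₀, hmin⟩ := hK.exists_isMinOn hne hcont.continuousOn
      refine ⟨dist y₀ (γ • y₀), dist_pos.2 (Ne.symm (hex γ hγ y₀ hy₀)), fun _ y hy => hmin hy⟩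
    · exact ⟨1, one_pos, fun h => absurd h hγ⟩
  choose d hd0 hd using hlow
  -- minimum over the finite set
  obtain ⟨δ, hδ0, hδ⟩ : ∃ δ : ℝ, 0 < δ ∧ ∀ γ ∈ {g : G | ∃ x ∈ K', g • x ∈ K'}, δ ≤ d γ := by
    rcases Set.eq_empty_or_nonempty {g : G | ∃ x ∈ K', g • x ∈ K'} with he | hne
    · exact ⟨1, one_pos, by rw [he]; simp⟩
    · obtain ⟨γ₀, _, hmin⟩ := Set.exists_min_image _ d hfin hne
      exact ⟨d γ₀, hd0 _, hmin⟩
  refine ⟨min 1 δ, lt_min one_pos hδ0, fun x => ?_⟩
  by_contra hlt
  push Not at hlt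
  obtain ⟨h, hh⟩ := hcov x
  set γ := h * g * h⁻¹ with hγ
  have hconj : IsConj g γ := isConj_iff.2 ⟨h, rfl⟩
  have hdist : dist (h • x) (γ • (h • x)) = dist x (g • x) := by
    rw [hγ, smul_smul, inv_mul_cancel_right, mul_smul, hG.isometry]
  have hmem : γ ∈ {g : G | ∃ x ∈ K', g • x ∈ K'} := by
    refine ⟨h • x, Metric.self_subset_cthickening K hh, ?_⟩
    refine Metric.mem_cthickening_of_dist_le _ (h • x) _ _ hh ?_
    rw [dist_comm, hdist]
    exact (hlt.trans_le (min_le_left _ _)).le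
  have h1 := hδ γ hmem
  have h2 := hd γ hconj (h • x) hh
  rw [hdist] at h2
  have h3 := min_le_right (1 : ℝ) δ
  linarith

/-- The `ℓ¹`-Bass conjecture holds for all CAT(0) groups. -/
theorem l1Bass_of_geometric [ProperSpace X] [Nonempty X] (hX : IsCAT0 X)
    (hG : IsGeometricAction G X) : L1Bass G := by
  obtain ⟨K, hK, hcov⟩ := hG.cocompact
  obtain ⟨x₀⟩ := ‹Nonempty X›
  apply l1Bass_of_good
  · intro g hg
    rcases dichotomy hG hK hcov g with ⟨δ, hδ, hle⟩ | ⟨γ, hγ, y, hy, hfix⟩
    · exact good_of_cat0 hX hG.isometry x₀ δ hδ fun n => linear_growth hX hG.isometry hle x₀ n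
    · exfalso
      apply hg
      -- `γ` fixes `y`, hence has finite order
      have hfix' : ∀ n : ℕ, γ ^ n • y = y := by
        intro n
        induction n with
        | zero => simp
        | succ n ih => rw [pow_succ, mul_smul, hfix, ih]
      have hfin := hG.proper {y} isCompact_singleton
      have hγfin : IsOfFinOrder γ := by
        by_contra hinf
        have hinj : Function.Injective fun n : ℕ => γ ^ n := injective_pow_iff_not_isOfFinOrder.2 hinf
        refine Set.infinite_range_of_injective hinj (hfin.subset ?_)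
        rintro _ ⟨n, rfl⟩
        exact ⟨y, rfl, hfix' n⟩
      obtain ⟨c, hc⟩ := isConj_iff.1 hγ
      have : g = MulAut.conj c⁻¹ γ := by
        simp only [MulAut.conj_apply, ← hc]; group
      rw [this]
      exact (MulAut.conj c⁻¹).toMonoidHom.isOfFinOrder hγfin
  · -- finitely many classes of elements of finite order
    have hfin := hG.proper K hK
    refine (hfin.image ConjClasses.mk).subset ?_
    rintro C ⟨g, hg, rfl⟩
    rcases dichotomy hG hK hcov g with ⟨δ, hδ, hle⟩ | ⟨γ, hγ, y, hy, hfix⟩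
    · exfalso
      obtain ⟨n, hn, hgn⟩ := isOfFinOrder_iff_pow_eq_one.1 hg
      have := linear_growth hX hG.isometry hle x₀ n
      rw [hgn, one_smul, dist_self] at this
      have : 0 < δ * n := by positivity
      linarith
    · refine ⟨γ, ⟨y, hy, by rw [hfix]; exact hy⟩, ?_⟩
      rw [ConjClasses.mk_eq_mk_iff_isConj]
      exact hγ.symm

end Vale.Agent.P184
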