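import Vale.Agent.P184.Good

set_option linter.unusedSectionVars false

namespace Vale.Agent.P184

variable {G : Type*} [Group G]

/-- Elements which are not killed by some real-valued homomorphism are good. -/
theorem good_of_global_hom (φ : G → ℝ) (hφ : ∀ x y, φ (x * y) = φ x + φ y) {g : G} (hg : φ g ≠ 0) :
    Good g := by
  have h1 : φ 1 = 0 := by
    have := hφ 1 1
    rw [mul_one] at this
    linarith
  refine ⟨φ, fun x => |φ x|, ?_, ?_, by rwa [h1]⟩
  · intro z _ k x
    rw [hφ, hφ]; ring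
  · intro x k
    rw [hφ]; simp

/-- Goodness passes from a subgroup of finite index to the whole group. -/
theorem Good.of_finiteIndex (H : Subgroup G) [hH : H.FiniteIndex] (h : H) (hgood : Good h) :
    Good (h : G) := by
  classical
  obtain ⟨ΦH, BH, h1, h2, h3⟩ := hgood
  have : Fintype (G ⧸ H) := H.fintypeQuotientOfFiniteIndex
  -- right transversal
  have hmemη : ∀ x : G, x * ((Quotient.out ((x⁻¹ : G) : G ⧸ H) : G)) ∈ H := by
    intro x
    have : ((Quotient.out ((x⁻¹ : G) : G ⧸ H) : G) : G ⧸ H) = ((x⁻¹ : G) : G ⧸ H) := Quotient.out_eq _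
    have h4 := QuotientGroup.eq.1 this.symm
    rwa [inv_inv] at h4
  let η : G → H := fun x => ⟨x * (Quotient.out ((x⁻¹ : G) : G ⧸ H) : G), hmemη x⟩
  have hη : ∀ (w : H) (x : G), η (w * x) = w * η x := by
    intro w x
    apply Subtype.ext
    have : ((((w : G) * x)⁻¹ : G) : G ⧸ H) = ((x⁻¹ : G) : G ⧸ H) := by
      rw [QuotientGroup.eq]
      rw [inv_inv, mul_inv_cancel_right]
      exact w.2
    show (w : G) * x * _ = (w : G) * (x * _)
    rw [this, mul_assoc]
  let Φt : G → ℝ := fun x => ΦH (η x)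
  let B : G → ℝ := fun x => ∑ a : G ⧸ H, ∑ b : G ⧸ H,
    (if hw : (Quotient.out a : G)⁻¹ * x * (Quotient.out b : G) ∈ H then |BH ⟨_, hw⟩| else 0)
  have hB : ∀ x y : G, |Φt (y * x) - Φt y| ≤ B x := by
    intro x y
    set a : G ⧸ H := ((y⁻¹ : G) : G ⧸ H) with ha
    set b : G ⧸ H := (((y * x)⁻¹ : G) : G ⧸ H) with hb
    have hw : (Quotient.out a : G)⁻¹ * x * (Quotient.out b : G) ∈ H := by
      have e1 := hmemη y
      have e2 := hmemη (y * x)
      have : (Quotient.out a : G)⁻¹ * x * (Quotient.out b : G) =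
          (y * (Quotient.out a : G))⁻¹ * (y * x * (Quotient.out b : G)) := by group
      rw [this]
      exact H.mul_mem (H.inv_mem e1) e2
    have e3 : η (y * x) = η y * ⟨_, hw⟩ := by
      apply Subtype.ext
      show y * x * (Quotient.out b : G) = y * (Quotient.out a : G) * _
      simp only
      group
    have e4 : |Φt (y * x) - Φt y| ≤ |BH ⟨_, hw⟩| := by
      show |ΦH (η (y * x)) - ΦH (η y)| ≤ _
      rw [e3]
      exact (h2 _ _).trans (le_abs_self _)
    refine e4.trans ?_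
    have e5 : ∀ a b : G ⧸ H, 0 ≤ (if hw : (Quotient.out a : G)⁻¹ * x * (Quotient.out b : G) ∈ H
        then |BH ⟨_, hw⟩| else 0) := by
      intro a b
      split_ifs
      · exact abs_nonneg _
      · exact le_rfl
    have e6 : (if hw : (Quotient.out a : G)⁻¹ * x * (Quotient.out b : G) ∈ H
        then |BH ⟨_, hw⟩| else 0) = |BH ⟨_, hw⟩| := dif_pos hw
    rw [← e6]
    refine le_trans ?_ (Finset.single_le_sum (f := fun a => ∑ b : G ⧸ H,
      (if hw : (Quotient.out a : G)⁻¹ * x * (Quotient.out b : G) ∈ H then |BH ⟨_, hw⟩| else 0))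
      (fun a _ => Finset.sum_nonneg fun b _ => e5 a b) (Finset.mem_univ a))
    exact Finset.single_le_sum (f := fun b => (if hw : (Quotient.out a : G)⁻¹ * x * (Quotient.out b : G) ∈ H
      then |BH ⟨_, hw⟩| else 0)) (fun b _ => e5 a b) (Finset.mem_univ b)
  -- equivariance of `Φt` under the centralizer in `H`
  have hΦt : ∀ w : H, w ∈ Subgroup.centralizer {h} → ∀ k x, Φt (w * k) - Φt (w * x) = Φt k - Φt x := by
    intro w hw k x
    show ΦH (η (w * k)) - ΦH (η (w * x)) = ΦH (η k) - ΦH (η x)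
    rw [hη, hη]
    exact h1 w hw _ _
  have hh : h ∈ Subgroup.centralizer {h} := by
    rw [Subgroup.mem_centralizer_singleton_iff]
  let Z : Subgroup G := Subgroup.centralizer {(h : G)}
  let HZ : Subgroup Z := H.subgroupOf Z
  have : HZ.FiniteIndex := inferInstance
  have : Fintype (Z ⧸ HZ) := HZ.fintypeQuotientOfFiniteIndex
  let t : Z ⧸ HZ → Z := fun i => Quotient.out i
  refine ⟨fun k => ∑ i : Z ⧸ HZ, Φt (((t i)⁻¹ : Z) * k), fun x => ∑ _i : Z ⧸ HZ, B x, ?_, ?_, ?_⟩
  · intro z hz k x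
    simp only
    rw [← Finset.sum_sub_distrib, ← Finset.sum_sub_distrib]
    let z' : Z := ⟨z, hz⟩
    -- reindex
    rw [← Equiv.sum_comp (MulAction.toPerm (z')⁻¹ : Equiv.Perm (Z ⧸ HZ))
      (fun i => Φt (((t i)⁻¹ : Z) * k) - Φt (((t i)⁻¹ : Z) * x))]
    refine Finset.sum_congr rfl fun i _ => ?_
    simp only [MulAction.toPerm_apply]
    set j : Z ⧸ HZ := (z')⁻¹ • i with hj
    have hmem : (t j)⁻¹ * ((z')⁻¹ * t i) ∈ HZ := by
      have e1 : ((t j : Z) : Z ⧸ HZ) = j := Quotient.out_eq _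
      have e2 : (((z')⁻¹ * t i : Z) : Z ⧸ HZ) = j := by
        have e3 : ((t i : Z) : Z ⧸ HZ) = i := Quotient.out_eq _
        rw [hj]
        nth_rw 2 [← e3]
        rfl
      exact QuotientGroup.eq.1 (e1.trans e2.symm)
    -- the element of `H`
    let w : H := ⟨(((t j)⁻¹ * ((z')⁻¹ * t i) : Z) : G), hmem⟩
    have hwZ : w⁻¹ ∈ Subgroup.centralizer {h} := by
      apply Subgroup.inv_mem
      rw [Subgroup.mem_centralizer_singleton_iff]
      apply Subtype.ext
      exact Subgroup.mem_centralizer_singleton_iff.1 (((t j)⁻¹ * ((z')⁻¹ * t i) : Z)).2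
    have e4 : ∀ y : G, (((t i)⁻¹ : Z) : G) * (z * y) = ((w⁻¹ : H) : G) * ((((t j)⁻¹ : Z) : G) * y) := by
      intro y
      have : ((w⁻¹ : H) : G) = (((t i)⁻¹ * z' * t j : Z) : G) := by
        show ((((t j)⁻¹ * ((z')⁻¹ * t i) : Z) : G))⁻¹ = _
        push_cast
        group
      rw [this]
      push_cast
      show _ = (↑(t i))⁻¹ * z * ↑(t j) * ((↑(t j))⁻¹ * y)
      group
    rw [e4, e4]
    exact hΦt _ hwZ _ _
  · intro x k
    simp only
    rw [← Finset.sum_sub_distrib]
    refine (Finset.abs_sum_le_sum_abs _ _).trans (Finset.sum_le_sum fun i _ => ?_)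
    rw [← mul_assoc]
    exact hB x _
  · intro hcon
    simp only [mul_one] at hcon
    have e1 : ∀ i : Z ⧸ HZ, Φt (((t i)⁻¹ : Z) * (h : G)) - Φt (((t i)⁻¹ : Z)) = ΦH h - ΦH 1 := by
      intro i
      have e2 := Subgroup.mem_centralizer_singleton_iff.1 ((t i)⁻¹ : Z).2
      rw [e2]
      show ΦH (η _) - ΦH (η _) = _
      rw [hη]
      have := h1 h hh (η (((t i)⁻¹ : Z) : G)) 1
      rw [mul_one] at this
      linarith
    have e3 : ∑ i : Z ⧸ HZ, (Φt (((t i)⁻¹ : Z) * (h : G)) - Φt (((t i)⁻¹ : Z))) = 0 := by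
      rw [Finset.sum_sub_distrib, hcon, sub_self]
    simp_rw [e1] at e3
    rw [Finset.sum_const, Finset.card_univ, nsmul_eq_mul] at e3
    rcases mul_eq_zero.1 e3 with h4 | h4
    · have : (Fintype.card (Z ⧸ HZ) : ℝ) ≠ 0 := by
        exact_mod_cast Fintype.card_ne_zero
      exact this h4
    · exact h3 (sub_eq_zero.1 h4)

end Vale.Agent.P184
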