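import Vale.Agent.P184.LinMain
import Vale.Agent.P184.Geom
import Vale.Agent.P184.Index

set_option linter.unusedSectionVars false

namespace Vale.Agent.P184

open Polynomial

/-- A matrix over an algebraically closed field of characteristic `p` all of whose eigenvalues are roots of
unity has a positive power equal to the identity. -/
lemma pow_eq_one_of_charP {L : Type*} [Field L] [IsAlgClosed L] (p : ℕ) [hp : Fact p.Prime] [CharP L p]
    {n : ℕ} (A : Matrix (Fin n) (Fin n) L)
    (h : ∀ a : L, A.charpoly.IsRoot a → ∃ m : ℕ, 0 < m ∧ a ^ m = 1) : ∃ m : ℕ, 0 < m ∧ A ^ m = 1 := by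
  classical
  -- a common exponent
  choose! μ hμ using h
  let m := ∏ a ∈ A.charpoly.roots.toFinset, μ a
  have hmpos : 0 < m := by
    refine Finset.prod_pos fun a ha => ?_
    exact (hμ a ((mem_roots (A.charpoly_monic.ne_zero)).1 (Multiset.mem_toFinset.1 ha))).1
  have hroots : ∀ a ∈ A.charpoly.roots, a ^ m = 1 := by
    intro a ha
    have h1 := (hμ a ((mem_roots (A.charpoly_monic.ne_zero)).1 ha)).2
    obtain ⟨c, hc⟩ : μ a ∣ m := Finset.dvd_prod_of_mem μ (Multiset.mem_toFinset.2 ha)
    rw [hc, pow_mul, h1, one_pow]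
  -- the characteristic polynomial divides `(X^m - 1)^n`
  have hdvd : A.charpoly ∣ (X ^ m - 1) ^ (Multiset.card A.charpoly.roots) := by
    have hprod : A.charpoly = (A.charpoly.roots.map fun r => X - C r).prod :=
      (IsAlgClosed.splits A.charpoly).eq_prod_roots_of_monic A.charpoly_monic
    nth_rw 1 [hprod]
    have h2 : ((X ^ m - 1 : L[X]) ^ (Multiset.card A.charpoly.roots)) =
        (A.charpoly.roots.map fun _ => (X ^ m - 1 : L[X])).prod := by
      rw [Multiset.map_const', Multiset.prod_replicate]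
    rw [h2]
    refine Multiset.prod_dvd_prod_of_dvd _ _ ?_
    intro a ha
    rw [dvd_iff_isRoot]
    simp [hroots a ha]
  have hzero : (A ^ m - 1) ^ (Multiset.card A.charpoly.roots) = 0 := by
    have h3 := Matrix.aeval_self_charpoly A
    obtain ⟨g, hg⟩ := hdvd
    have h4 : aeval A ((X ^ m - 1 : L[X]) ^ (Multiset.card A.charpoly.roots)) = 0 := by
      rw [hg, map_mul, h3, zero_mul]
    simpa using h4
  obtain ⟨k, hk⟩ : ∃ k : ℕ, Multiset.card A.charpoly.roots ≤ p ^ k :=
    ⟨Multiset.card A.charpoly.roots, (Nat.lt_pow_self hp.out.one_lt).le⟩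
  have hzero' : (A ^ m - 1) ^ (p ^ k) = 0 := pow_eq_zero_of_le hk hzero
  refine ⟨m * p ^ k, Nat.mul_pos hmpos (pow_pos hp.out.pos k), ?_⟩
  rcases Nat.eq_zero_or_pos n with rfl | hn
  · exact Subsingleton.elim _ _
  have : Nonempty (Fin n) := ⟨⟨0, hn⟩⟩
  have hchar : CharP (Matrix (Fin n) (Fin n) L) p := Matrix.charP p
  have h5 : (A ^ m - 1) ^ (p ^ k) = (A ^ m) ^ (p ^ k) - 1 ^ (p ^ k) :=
    sub_pow_char_pow_of_commute p k (Commute.one_right _)
  rw [h5, one_pow, sub_eq_zero] at hzero'
  rw [pow_mul]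
  exact hzero'

/-- In a linear group over a field of positive characteristic, the trace coefficients at all elements
of infinite order vanish. -/
theorem coeff_eq_zero_of_linear_charP {G : Type*} [Group G] {F : Type*} [Field F] (p : ℕ)
    [hp : Fact p.Prime] [CharP F p] {n : ℕ} (ρ : G →* Matrix.GeneralLinearGroup (Fin n) F)
    (hρ : Function.Injective ρ) {g : G} (hg : ¬ IsOfFinOrder g) {q : ℕ}
    {e : Fin q → Fin q → G → ℂ} (he : IsIdem q e) : coeff e g = 0 := by
  classical
  have hcharL : CharP (AlgebraicClosure F) p := charP_of_injective_algebraMap (algebraMap F _).injective p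
  let ρL : G →* Matrix (Fin n) (Fin n) (AlgebraicClosure F) :=
    ((algebraMap F (AlgebraicClosure F)).mapMatrix :
      Matrix (Fin n) (Fin n) F →+* Matrix (Fin n) (Fin n) (AlgebraicClosure F)).toMonoidHom.comp
      ((Units.coeHom (Matrix (Fin n) (Fin n) F)).comp ρ)
  have hinj : Function.Injective ρL := by
    intro x y hxy
    apply hρ
    apply Units.ext
    have h1 : ((ρ x : Matrix (Fin n) (Fin n) F)).map (algebraMap F (AlgebraicClosure F)) =
        ((ρ y : Matrix (Fin n) (Fin n) F)).map (algebraMap F (AlgebraicClosure F)) := hxy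
    ext i j
    have h2 := congrFun (congrFun h1 i) j
    exact (algebraMap F (AlgebraicClosure F)).injective h2
  by_cases hex : ∃ a : AlgebraicClosure F, (ρL g).charpoly.IsRoot a ∧ ∀ m : ℕ, 0 < m → a ^ m ≠ 1
  · obtain ⟨a, ha, hroot⟩ := hex
    exact coeff_eq_zero_of_linear ρL a ha hroot he
  · exfalso
    push Not at hex
    obtain ⟨m, hm, hAm⟩ := pow_eq_one_of_charP p (ρL g) hex
    apply hg
    rw [isOfFinOrder_iff_pow_eq_one]
    refine ⟨m, hm, hinj ?_⟩
    rw [map_pow, hAm, map_one]

/-- Full conclusion when there are only finitely many classes of elements of finite order. -/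
theorem l1Bass_of_coeff {G : Type*} [Group G]
    (h : ∀ g : G, ¬ IsOfFinOrder g → ∀ (q : ℕ) (e : Fin q → Fin q → G → ℂ), IsIdem q e → coeff e g = 0)
    (hfin : {C : ConjClasses G | ∃ g : G, IsOfFinOrder g ∧ ConjClasses.mk g = C}.Finite) :
    L1Bass G := by
  intro q e he
  refine ⟨_, hfin, ?_, ?_⟩
  · rintro g ⟨g', hg', hgg'⟩
    rw [ConjClasses.mk_eq_mk_iff_isConj] at hgg'
    obtain ⟨c, hc⟩ := isConj_iff.1 hgg'
    rw [← hc]
    have : c * g' * c⁻¹ = MulAut.conj c g' := rfl
    rw [this]
    exact (MulAut.conj c).toMonoidHom.isOfFinOrder hg'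
  · intro g hg
    by_cases hgf : IsOfFinOrder g
    · exact absurd ⟨g, hgf, rfl⟩ hg
    · exact h g hgf q e he

end Vale.Agent.P184
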