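import Vale.Agent.P184.Defs

open scoped ENNReal NNReal

set_option linter.unusedSectionVars false

namespace Vale.Agent.P184

variable {G : Type*} [Group G] {M : Type*} [NormedRing M]

/-- The size of a kernel `a : G → G → M` (first variable: group element, second variable: position):
the sum over the group of the suprema over positions. -/
noncomputable def N (a : G → G → M) : ℝ≥0∞ := ∑' x, ⨆ k, ‖a x k‖ₑ

/-- Twisted convolution of kernels. -/
noncomputable def kmul (a b : G → G → M) : G → G → M :=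
  fun x k => ∑' y, a y k * b (y⁻¹ * x) (k * y)

lemma enorm_mul_le'' (x y : M) : ‖x * y‖ₑ ≤ ‖x‖ₑ * ‖y‖ₑ := by
  simp only [enorm_eq_nnnorm, ← ENNReal.coe_mul]
  exact_mod_cast nnnorm_mul_le x y

lemma tsum_conv (A B : G → ℝ≥0∞) : ∑' x, ∑' y, A y * B (y⁻¹ * x) = (∑' x, A x) * ∑' x, B x := by
  rw [ENNReal.tsum_comm]
  have : ∀ y, ∑' x, A y * B (y⁻¹ * x) = A y * ∑' x, B x := by
    intro y
    rw [ENNReal.tsum_mul_left, ← (Equiv.mulLeft y).tsum_eq]
    simp
  simp_rw [this]
  rw [ENNReal.tsum_mul_right]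

lemma le_sup (a : G → G → M) (x k : G) : ‖a x k‖ₑ ≤ ⨆ k, ‖a x k‖ₑ := le_iSup (fun k => ‖a x k‖ₑ) k

lemma N_kmul_le (a b : G → G → M) : N (kmul a b) ≤ N a * N b := by
  unfold N
  rw [← tsum_conv]
  refine ENNReal.tsum_le_tsum fun x => iSup_le fun k => ?_
  refine (enorm_tsum_le_tsum_enorm).trans (ENNReal.tsum_le_tsum fun y => ?_)
  exact (enorm_mul_le'' _ _).trans (mul_le_mul' (le_sup a y k) (le_sup b _ _))

lemma N_add_le (a b : G → G → M) : N (a + b) ≤ N a + N b := by
  unfold N
  rw [← ENNReal.tsum_add]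
  refine ENNReal.tsum_le_tsum fun x => iSup_le fun k => ?_
  exact (enorm_add_le _ _).trans (add_le_add (le_sup a x k) (le_sup b x k))

lemma N_neg (a : G → G → M) : N (-a) = N a := by
  unfold N; simp

lemma N_zero : N (0 : G → G → M) = 0 := by
  unfold N; simp

lemma summable_kmul [CompleteSpace M] {a b : G → G → M} (ha : N a ≠ ∞) (hb : N b ≠ ∞) (x k : G) :
    Summable fun y => a y k * b (y⁻¹ * x) (k * y) := by
  refine Summable.of_enorm (ne_top_of_le_ne_top (ENNReal.mul_ne_top ha hb) ?_)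
  unfold N
  rw [← tsum_conv]
  refine le_trans ?_ (ENNReal.le_tsum x)
  refine ENNReal.tsum_le_tsum fun y => ?_
  exact (enorm_mul_le'' _ _).trans (mul_le_mul' (le_sup a y k) (le_sup b _ _))

/-- The set of kernels of finite size which are invariant under left translation by `Z`
in the position variable. -/
def K (Z : Subgroup G) (M : Type*) [NormedRing M] : AddSubgroup (G → G → M) where
  carrier := {a | N a ≠ ∞ ∧ ∀ z ∈ Z, ∀ x k, a x (z * k) = a x k}
  add_mem' := by
    rintro a b ⟨ha, ha'⟩ ⟨hb, hb'⟩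
    refine ⟨ne_top_of_le_ne_top (ENNReal.add_ne_top.2 ⟨ha, hb⟩) (N_add_le a b), ?_⟩
    intro z hz x k
    simp [ha' z hz x k, hb' z hz x k]
  zero_mem' := ⟨by rw [N_zero]; simp, by simp⟩
  neg_mem' := by
    rintro a ⟨ha, ha'⟩
    refine ⟨by rwa [N_neg], ?_⟩
    intro z hz x k
    simp [ha' z hz x k]

variable {Z : Subgroup G}

lemma kmul_mem {a b : G → G → M} (ha : a ∈ K Z M) (hb : b ∈ K Z M) : kmul a b ∈ K Z M := by
  refine ⟨ne_top_of_le_ne_top (ENNReal.mul_ne_top ha.1 hb.1) (N_kmul_le a b), ?_⟩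
  intro z hz x k
  unfold kmul
  refine tsum_congr fun y => ?_
  rw [ha.2 z hz, mul_assoc, hb.2 z hz]

/-- The identity kernel. -/
def kone (G : Type*) [Group G] [DecidableEq G] (M : Type*) [NormedRing M] : G → G → M :=
  fun x _ => if x = 1 then 1 else 0

lemma kone_mem [DecidableEq G] : kone G M ∈ K Z M := by
  refine ⟨?_, fun z _ x k => rfl⟩
  unfold N kone
  rw [tsum_eq_single 1]
  · simp
  · intro b hb; simp [hb]

lemma kmul_assoc [CompleteSpace M] {a b c : G → G → M} (ha : N a ≠ ∞) (hb : N b ≠ ∞) (hc : N c ≠ ∞) :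
    kmul (kmul a b) c = kmul a (kmul b c) := by
  funext x k
  -- the double family
  let F : G → G → M := fun y z => a z k * b (z⁻¹ * y) (k * z) * c (y⁻¹ * x) (k * y)
  have hF : Summable (Function.uncurry F) := by
    refine Summable.of_enorm ?_
    rw [ENNReal.tsum_prod']
    refine ne_top_of_le_ne_top (ENNReal.mul_ne_top (ENNReal.mul_ne_top ha hb) hc) ?_
    have h1 : N a * N b * N c = ∑' x, ∑' y, (∑' z, (⨆ k, ‖a z k‖ₑ) * (⨆ k, ‖b (z⁻¹ * y) k‖ₑ)) *
        (⨆ k, ‖c (y⁻¹ * x) k‖ₑ) := by
      rw [tsum_conv (fun y => ∑' z, (⨆ k, ‖a z k‖ₑ) * (⨆ k, ‖b (z⁻¹ * y) k‖ₑ))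
        (fun x => ⨆ k, ‖c x k‖ₑ), tsum_conv (fun x => ⨆ k, ‖a x k‖ₑ) (fun x => ⨆ k, ‖b x k‖ₑ)]
      rfl
    rw [h1]
    refine le_trans ?_ (ENNReal.le_tsum x)
    refine ENNReal.tsum_le_tsum fun y => ?_
    rw [← ENNReal.tsum_mul_right]
    refine ENNReal.tsum_le_tsum fun z => ?_
    refine (enorm_mul_le'' _ _).trans (mul_le_mul' ?_ (le_sup c _ _))
    exact (enorm_mul_le'' _ _).trans (mul_le_mul' (le_sup a _ _) (le_sup b _ _))
  have hL : kmul (kmul a b) c x k = ∑' y, ∑' z, F y z := by
    unfold kmul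
    refine tsum_congr fun y => ?_
    rw [← (summable_kmul ha hb y k).tsum_mul_right]
  have hR : kmul a (kmul b c) x k = ∑' z, ∑' y, F y z := by
    unfold kmul
    refine tsum_congr fun z => ?_
    rw [← (summable_kmul hb hc (z⁻¹ * x) (k * z)).tsum_mul_left]
    rw [← (Equiv.mulLeft z⁻¹).tsum_eq]
    refine tsum_congr fun y => ?_
    simp only [Equiv.coe_mulLeft, F]
    simp [mul_assoc]
  rw [hL, hR]
  exact hF.tsum_comm.symm


lemma kmul_add [CompleteSpace M] {a b c : G → G → M} (ha : N a ≠ ∞) (hb : N b ≠ ∞) (hc : N c ≠ ∞) :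
    kmul a (b + c) = kmul a b + kmul a c := by
  funext x k
  show ∑' y, a y k * (b + c) (y⁻¹ * x) (k * y) = kmul a b x k + kmul a c x k
  unfold kmul
  rw [← (summable_kmul ha hb x k).tsum_add (summable_kmul ha hc x k)]
  refine tsum_congr fun y => ?_
  simp [mul_add]

lemma add_kmul [CompleteSpace M] {a b c : G → G → M} (ha : N a ≠ ∞) (hb : N b ≠ ∞) (hc : N c ≠ ∞) :
    kmul (a + b) c = kmul a c + kmul b c := by
  funext x k
  show ∑' y, (a + b) y k * c (y⁻¹ * x) (k * y) = kmul a c x k + kmul b c x k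
  unfold kmul
  rw [← (summable_kmul ha hc x k).tsum_add (summable_kmul hb hc x k)]
  refine tsum_congr fun y => ?_
  simp [add_mul]

lemma kmul_zero (a : G → G → M) : kmul a 0 = 0 := by
  funext x k; simp [kmul]

lemma zero_kmul (a : G → G → M) : kmul 0 a = 0 := by
  funext x k; simp [kmul]

lemma kone_kmul [DecidableEq G] (a : G → G → M) : kmul (kone G M) a = a := by
  funext x k
  unfold kmul kone
  rw [tsum_eq_single 1]
  · simp
  · intro b hb; simp [hb]

lemma kmul_kone [DecidableEq G] (a : G → G → M) : kmul a (kone G M) = a := by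
  funext x k
  unfold kmul kone
  rw [tsum_eq_single x]
  · simp
  · intro b hb
    rw [if_neg]
    · simp
    · intro h
      apply hb
      exact (inv_mul_eq_one.1 h)

/-- The ring of `Z`-invariant kernels of finite size. -/
noncomputable instance instRingK [DecidableEq G] [CompleteSpace M] : Ring (K Z M) :=
  { (inferInstance : AddCommGroup (K Z M)) with
    mul := fun a b => ⟨kmul a.1 b.1, kmul_mem a.2 b.2⟩
    one := ⟨kone G M, kone_mem⟩
    left_distrib := fun a b c => Subtype.ext (kmul_add a.2.1 b.2.1 c.2.1)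
    right_distrib := fun a b c => Subtype.ext (add_kmul a.2.1 b.2.1 c.2.1)
    zero_mul := fun a => Subtype.ext (zero_kmul a.1)
    mul_zero := fun a => Subtype.ext (kmul_zero a.1)
    mul_assoc := fun a b c => Subtype.ext (kmul_assoc a.2.1 b.2.1 c.2.1)
    one_mul := fun a => Subtype.ext (kone_kmul a.1)
    mul_one := fun a => Subtype.ext (kmul_kone a.1) }

@[simp] lemma coe_mul [DecidableEq G] [CompleteSpace M] (a b : K Z M) :
    ((a * b : K Z M) : G → G → M) = kmul a.1 b.1 := rfl

/-! ### The abstract trace argument -/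

section abstract

variable {A : Type*} [Ring A]

lemma comm_p (p q : A) (hp : p * p = p) (hq : q * q = q) :
    p * ((p - q) * (p - q)) = ((p - q) * (p - q)) * p := by
  have h1 : p * ((p - q) * (p - q)) = p * p * p - p * p * q - p * q * p + p * (q * q) := by
    noncomm_ring
  have h2 : ((p - q) * (p - q)) * p = p * p * p - p * q * p - q * (p * p) + q * q * p := by
    noncomm_ring
  rw [h1, h2]
  simp only [hp, hq]
  noncomm_ring

lemma comm_q (p q : A) (hp : p * p = p) (hq : q * q = q) :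
    q * ((p - q) * (p - q)) = ((p - q) * (p - q)) * q := by
  have := comm_p q p hq hp
  have e : (q - p) * (q - p) = (p - q) * (p - q) := by noncomm_ring
  rwa [e] at this

lemma trace_pow {B : Type*} [AddCommGroup B] (T : A →+ B) (hT : ∀ a b, T (a * b) = T (b * a))
    (p q : A) (hp : p * p = p) (hq : q * q = q) (n : ℕ) :
    T ((p - q) * ((p - q) * (p - q)) ^ n) = T (p - q) := by
  induction n with
  | zero => simp
  | succ n ih =>
    set c := (p - q) * (p - q) with hc
    have hpc : Commute p (c ^ n) := (show Commute p c from comm_p p q hp hq).pow_right n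
    have hqc : Commute q (c ^ n) := (show Commute q c from comm_q p q hp hq).pow_right n
    have key : (p - q) * c = (p - q) - p * q * p + q * p * q := by
      rw [hc]
      have : (p - q) * ((p - q) * (p - q)) = p * p * p - p * p * q - p * q * p + p * (q * q)
          - q * (p * p) + q * p * q + q * q * p - q * q * q := by noncomm_ring
      rw [this]
      simp only [hp, hq]
      noncomm_ring
    rw [pow_succ', ← mul_assoc, key, add_mul, sub_mul, map_add, map_sub, ih]
    have e1 : T (p * q * p * c ^ n) = T (p * q * c ^ n) := by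
      rw [mul_assoc (p * q) p, hpc.eq, ← mul_assoc, hT, ← mul_assoc, ← mul_assoc, hp]
    have e2 : T (q * p * q * c ^ n) = T (p * q * c ^ n) := by
      rw [mul_assoc (q * p) q, hqc.eq, ← mul_assoc, hT, ← mul_assoc, ← mul_assoc, hq,
        mul_assoc, hT, mul_assoc, ← hqc.eq, ← mul_assoc]
    rw [e1, e2]
    abel

end abstract

end Vale.Agent.P184
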