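import Vale.Agent.P184.Trace

open scoped ENNReal NNReal Matrix.Norms.Operator

set_option linter.unusedSectionVars false

namespace Vale.Agent.P184

variable {G : Type*} [Group G]

variable {q : ℕ}

/-- matrix of an entry family -/
def mat (e : Fin q → Fin q → G → ℂ) (x : G) : Matrix (Fin q) (Fin q) ℂ := Matrix.of fun i j => e i j x

lemma norm_entry_le (A : Matrix (Fin q) (Fin q) ℂ) (i j : Fin q) : ‖A i j‖ ≤ ‖A‖ := by
  rw [Matrix.linfty_opNorm_def]
  have h1 : ‖A i j‖₊ ≤ ∑ j, ‖A i j‖₊ := Finset.single_le_sum (f := fun j => ‖A i j‖₊) (fun _ _ => zero_le) (Finset.mem_univ j)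
  have h2 : ∑ j, ‖A i j‖₊ ≤ (Finset.univ : Finset (Fin q)).sup fun i => ∑ j, ‖A i j‖₊ :=
    Finset.le_sup (f := fun i => ∑ j, ‖A i j‖₊) (Finset.mem_univ i)
  exact_mod_cast h1.trans h2

lemma norm_le_sum (A : Matrix (Fin q) (Fin q) ℂ) : ‖A‖ ≤ ∑ i, ∑ j, ‖A i j‖ := by
  rw [Matrix.linfty_opNorm_def]
  have : (Finset.univ : Finset (Fin q)).sup (fun i => ∑ j, ‖A i j‖₊) ≤ ∑ i, ∑ j, ‖A i j‖₊ :=
    Finset.sup_le fun i _ => Finset.single_le_sum (f := fun i => ∑ j, ‖A i j‖₊) (fun _ _ => zero_le) (Finset.mem_univ i)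
  refine (NNReal.coe_le_coe.2 this).trans ?_
  simp

lemma norm_trace_le (A : Matrix (Fin q) (Fin q) ℂ) : ‖A.trace‖ ≤ q * ‖A‖ := by
  unfold Matrix.trace
  refine (norm_sum_le _ _).trans ?_
  refine (Finset.sum_le_sum fun i _ => norm_entry_le A i i).trans ?_
  simp

instance : CompleteSpace (Matrix (Fin q) (Fin q) ℂ) := FiniteDimensional.complete ℂ _

lemma summable_mat {e : Fin q → Fin q → G → ℂ} (he : ∀ i j, Summable fun g => ‖e i j g‖) :
    Summable fun x => ‖mat e x‖ := by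
  refine Summable.of_nonneg_of_le (fun _ => norm_nonneg _) (fun x => norm_le_sum _) ?_
  exact summable_sum fun i _ => summable_sum fun j _ => he i j

/-- the trace as additive map -/
def trA : Matrix (Fin q) (Fin q) ℂ →+ ℂ := (Matrix.traceLinearMap (Fin q) ℂ ℂ).toAddMonoidHom

lemma trA_apply (A : Matrix (Fin q) (Fin q) ℂ) : trA A = A.trace := rfl

lemma trA_le (A : Matrix (Fin q) (Fin q) ℂ) : ‖trA A‖ₑ ≤ ((q : ℝ≥0) : ℝ≥0∞) * ‖A‖ₑ := by
  have h : ‖trA A‖₊ ≤ (q : ℝ≥0) * ‖A‖₊ := by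
    have := norm_trace_le A
    rw [← trA_apply] at this
    exact_mod_cast this
  rw [enorm_eq_nnnorm, enorm_eq_nnnorm]
  exact_mod_cast h

lemma trA_cont : Continuous (trA : Matrix (Fin q) (Fin q) ℂ →+ ℂ) :=
  LinearMap.continuous_of_finiteDimensional (Matrix.traceLinearMap (Fin q) ℂ ℂ)

lemma trA_comm (A B : Matrix (Fin q) (Fin q) ℂ) : trA (A * B) = trA (B * A) := Matrix.trace_mul_comm A B

/-- the convolution identity in matrix form -/
lemma mat_conv {e : Fin q → Fin q → G → ℂ} (he : IsIdem q e) (x : G) :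
    HasSum (fun y => mat e y * mat e (y⁻¹ * x)) (mat e x) := by
  have hs := summable_mat he.summable
  have hsum : Summable fun y => mat e y * mat e (y⁻¹ * x) := by
    refine Summable.of_norm_bounded (g := fun y => ‖mat e y‖ * (∑' z, ‖mat e z‖)) (hs.mul_right _) ?_
    intro y
    refine (norm_mul_le _ _).trans (mul_le_mul_of_nonneg_left ?_ (norm_nonneg _))
    exact hs.le_tsum _ (fun _ _ => norm_nonneg _)
  have h : ∑' y, mat e y * mat e (y⁻¹ * x) = mat e x := by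
    ext i j
    have hcont : Continuous fun A : Matrix (Fin q) (Fin q) ℂ => A i j :=
      LinearMap.continuous_of_finiteDimensional (Matrix.entryLinearMap ℂ ℂ i j)
    have h1 := hsum.map_tsum (Matrix.entryLinearMap ℂ ℂ i j) hcont
    simp only [Matrix.entryLinearMap_apply] at h1
    rw [h1]
    have h2 := he.mul_self i j x
    show _ = e i j x
    rw [← h2]
    have h3 : ∀ y, (mat e y * mat e (y⁻¹ * x)) i j = ∑ k, e i k y * e k j (y⁻¹ * x) := by
      intro y; rfl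
    simp_rw [h3]
    refine Summable.tsum_finsetSum fun k _ => ?_
    refine Summable.of_norm_bounded (g := fun y => ‖mat e y‖ * (∑' z, ‖mat e z‖)) (hs.mul_right _) ?_
    intro y
    rw [norm_mul]
    refine mul_le_mul (norm_entry_le (mat e y) i k) ?_ (norm_nonneg _) (norm_nonneg _)
    refine (norm_entry_le (mat e (y⁻¹ * x)) k j).trans ?_
    exact hs.le_tsum (y⁻¹ * x) (fun _ _ => norm_nonneg _)
  rw [← h]
  exact hsum.hasSum

/-- The untwisted kernel of `e`. -/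
def ker0 (e : Fin q → Fin q → G → ℂ) : G → G → Matrix (Fin q) (Fin q) ℂ := fun x _ => mat e x

/-- The twisted kernel of `e`. -/
noncomputable def kerT (Φ : G → ℝ) (e : Fin q → Fin q → G → ℂ) (t : ℝ) :
    G → G → Matrix (Fin q) (Fin q) ℂ :=
  fun x k => Complex.exp (Complex.I * ((t * (Φ k - Φ (k * x)) : ℝ) : ℂ)) • mat e x

lemma norm_exp (s : ℝ) : ‖Complex.exp (Complex.I * (s : ℂ))‖ = 1 := by
  rw [mul_comm]; exact Complex.norm_exp_ofReal_mul_I s

lemma enorm_kerT (Φ : G → ℝ) (e : Fin q → Fin q → G → ℂ) (t : ℝ) (x k : G) :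
    ‖kerT Φ e t x k‖ₑ = ‖mat e x‖ₑ := by
  unfold kerT
  have : ‖Complex.exp (Complex.I * ((t * (Φ k - Φ (k * x)) : ℝ) : ℂ)) • mat e x‖ = ‖mat e x‖ := by
    rw [norm_smul, norm_exp, one_mul]
  rw [← ofReal_norm, ← ofReal_norm, this]

lemma N_ker0 {e : Fin q → Fin q → G → ℂ} (he : ∀ i j, Summable fun g => ‖e i j g‖) :
    N (ker0 e) ≠ ∞ := by
  unfold N ker0
  have h : ∀ x : G, ⨆ _ : G, ‖mat e x‖ₑ = ‖mat e x‖ₑ := fun x => ciSup_const
  simp_rw [h]
  have h2 : ∀ x : G, ‖mat e x‖ₑ = ((‖mat e x‖₊ : ℝ≥0) : ℝ≥0∞) := fun x => rfl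
  simp_rw [h2]
  rw [ENNReal.tsum_coe_ne_top_iff_summable, ← NNReal.summable_coe]
  exact summable_mat he

lemma N_kerT (Φ : G → ℝ) (e : Fin q → Fin q → G → ℂ) (t : ℝ) : N (kerT Φ e t) = N (ker0 e) := by
  unfold N
  simp_rw [enorm_kerT]
  rfl

lemma kmul_kerT (Φ : G → ℝ) {e : Fin q → Fin q → G → ℂ} (he : IsIdem q e) (t : ℝ) :
    kmul (kerT Φ e t) (kerT Φ e t) = kerT Φ e t := by
  funext x k
  unfold kmul
  have h : ∀ y, kerT Φ e t y k * kerT Φ e t (y⁻¹ * x) (k * y) =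
      Complex.exp (Complex.I * ((t * (Φ k - Φ (k * x)) : ℝ) : ℂ)) • (mat e y * mat e (y⁻¹ * x)) := by
    intro y
    unfold kerT
    rw [smul_mul_smul_comm, ← Complex.exp_add]
    congr 2
    rw [mul_assoc, mul_inv_cancel_left]
    push_cast
    ring
  simp_rw [h]
  exact ((mat_conv he x).const_smul _).tsum_eq

lemma kmul_ker0 {e : Fin q → Fin q → G → ℂ} (he : IsIdem q e) :
    kmul (ker0 e) (ker0 e) = ker0 e := by
  funext x k
  unfold kmul ker0
  exact (mat_conv he x).tsum_eq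

lemma ker0_mem (Z : Subgroup G) {e : Fin q → Fin q → G → ℂ} (he : IsIdem q e) :
    ker0 e ∈ K Z (Matrix (Fin q) (Fin q) ℂ) := ⟨N_ker0 he.summable, fun _ _ _ _ => rfl⟩

lemma kerT_mem {Z : Subgroup G} {Φ : G → ℝ} (hΦ : ∀ z ∈ Z, ∀ k x, Φ (z * k) - Φ (z * x) = Φ k - Φ x)
    {e : Fin q → Fin q → G → ℂ} (he : IsIdem q e) (t : ℝ) :
    kerT Φ e t ∈ K Z (Matrix (Fin q) (Fin q) ℂ) := by
  refine ⟨by rw [N_kerT]; exact N_ker0 he.summable, fun z hz x k => ?_⟩
  unfold kerT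
  rw [mul_assoc, hΦ z hz]

lemma exp_sub_one_le (s : ℝ) : ‖1 - Complex.exp (Complex.I * (s : ℂ))‖ ≤ min 2 |s| := by
  refine le_min ?_ ?_
  · refine (norm_sub_le _ _).trans ?_
    rw [norm_exp]; norm_num
  · rw [norm_sub_rev, ]
    simpa using Real.norm_exp_I_mul_ofReal_sub_one_le (x := s)

lemma N_sub_le {Φ : G → ℝ} {B : G → ℝ} (hB : ∀ x k, |Φ (k * x) - Φ k| ≤ B x)
    {e : Fin q → Fin q → G → ℂ} (he : IsIdem q e) (t : ℝ) :
    N (ker0 e - kerT Φ e t) ≤ ENNReal.ofReal (∑' x, ‖mat e x‖ * min 2 (|t| * B x)) := by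
  have hB0 : ∀ x, 0 ≤ B x := fun x => (abs_nonneg _).trans (hB x 1)
  have hnn : ∀ x, 0 ≤ ‖mat e x‖ * min 2 (|t| * B x) := fun x =>
    mul_nonneg (norm_nonneg _) (le_min (by norm_num) (mul_nonneg (abs_nonneg _) (hB0 x)))
  have hsum : Summable fun x => ‖mat e x‖ * min 2 (|t| * B x) := by
    refine Summable.of_nonneg_of_le hnn (fun x => ?_) ((summable_mat he.summable).mul_right 2)
    exact mul_le_mul_of_nonneg_left (min_le_left _ _) (norm_nonneg _)
  rw [ENNReal.ofReal_tsum_of_nonneg hnn hsum]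
  unfold N
  refine ENNReal.tsum_le_tsum fun x => iSup_le fun k => ?_
  rw [← ofReal_norm]
  refine ENNReal.ofReal_le_ofReal ?_
  have h1 : (ker0 e - kerT Φ e t) x k =
      (1 - Complex.exp (Complex.I * ((t * (Φ k - Φ (k * x)) : ℝ) : ℂ))) • mat e x := by
    simp [ker0, kerT, sub_smul]
  rw [h1, norm_smul, mul_comm]
  refine mul_le_mul_of_nonneg_left ?_ (norm_nonneg _)
  refine (exp_sub_one_le _).trans ?_
  refine min_le_min le_rfl ?_
  rw [abs_mul]
  refine mul_le_mul_of_nonneg_left ?_ (abs_nonneg _)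
  rw [abs_sub_comm]
  exact hB x k

lemma tendsto_bound {B : G → ℝ} (hB0 : ∀ x, 0 ≤ B x)
    {e : Fin q → Fin q → G → ℂ} (he : IsIdem q e) :
    Filter.Tendsto (fun t : ℝ => ∑' x, ‖mat e x‖ * min 2 (|t| * B x)) (nhds 0) (nhds 0) := by
  have h := tendsto_tsum_of_dominated_convergence (𝓕 := nhds (0 : ℝ))
    (f := fun (t : ℝ) x => ‖mat e x‖ * min 2 (|t| * B x)) (g := fun _ => (0 : ℝ))
    (bound := fun x => ‖mat e x‖ * 2) ((summable_mat he.summable).mul_right 2) ?_ ?_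
  · simpa using h
  · intro x
    have : Continuous fun t : ℝ => ‖mat e x‖ * min 2 (|t| * B x) := by fun_prop
    have h0 := this.tendsto 0
    simpa using h0
  · refine Filter.Eventually.of_forall fun t x => ?_
    rw [Real.norm_of_nonneg (mul_nonneg (norm_nonneg _) (le_min (by norm_num) (mul_nonneg (abs_nonneg _) (hB0 x))))]
    exact mul_le_mul_of_nonneg_left (min_le_left _ _) (norm_nonneg _)

lemma setOf_inC (g : G) : {x | InC g x} = {x | IsConj g x} := by
  ext x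
  simp only [Set.mem_ofPred_eq, InC, isConj_iff]
  constructor
  · rintro ⟨k, hk⟩; exact ⟨k⁻¹, by simpa using hk⟩
  · rintro ⟨k, hk⟩; exact ⟨k⁻¹, by simpa using hk⟩

lemma T_ker0 (e : Fin q → Fin q → G → ℂ) (g : G) : T trA g (ker0 e) = coeff e g := by
  unfold T coeff
  rw [setOf_inC, ← tsum_subtype {x | IsConj g x} (fun x => trA (ker0 e x (kap g x)))]
  rfl

lemma T_kerT {Φ : G → ℝ} {g : G} {c : ℝ} (hg : ∀ k, Φ (g * k) = Φ k + c)
    (e : Fin q → Fin q → G → ℂ) (t : ℝ) :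
    T trA g (kerT Φ e t) = Complex.exp (Complex.I * ((- (t * c) : ℝ) : ℂ)) * coeff e g := by
  rw [← T_ker0]
  unfold T
  rw [← tsum_mul_left]
  refine tsum_congr fun x => ?_
  by_cases hx : x ∈ {x | InC g x}
  · rw [Set.indicator_of_mem hx, Set.indicator_of_mem hx]
    have hs := kap_spec hx
    have h1 : kap g x * x = g * kap g x := by
      nth_rw 2 [← hs]; group
    unfold kerT ker0
    rw [h1, hg]
    rw [trA_apply, trA_apply, Matrix.trace_smul, smul_eq_mul]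
    congr 3
    push_cast
    ring
  · rw [Set.indicator_of_notMem hx, Set.indicator_of_notMem hx, mul_zero]

/-- **Criterion.** If `Φ : G → ℝ` is such that `Φ (z k) - Φ k` is independent of `k` for `z` in the
centralizer of `g`, with `Φ (g k) - Φ k = c ≠ 0`, and `k ↦ Φ (k x) - Φ k` is bounded for every `x`,
then the trace coefficient of every idempotent matrix over `ℓ¹(G)` at the class of `g` vanishes. -/
theorem coeff_eq_zero {g : G} (Φ : G → ℝ) (B : G → ℝ)
    (h1 : ∀ z ∈ Subgroup.centralizer {g}, ∀ k x, Φ (z * k) - Φ (z * x) = Φ k - Φ x)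
    (h2 : ∀ x k, |Φ (k * x) - Φ k| ≤ B x)
    (c : ℝ) (hc : c ≠ 0) (h3 : ∀ k, Φ (g * k) = Φ k + c)
    {e : Fin q → Fin q → G → ℂ} (he : IsIdem q e) : coeff e g = 0 := by
  have hB0 : ∀ x, 0 ≤ B x := fun x => (abs_nonneg _).trans (h2 x 1)
  have ht := tendsto_bound hB0 he
  have hev : ∀ᶠ t : ℝ in nhds 0, ∑' x, ‖mat e x‖ * min 2 (|t| * B x) < 1 :=
    ht.eventually (gt_mem_nhds one_pos)
  obtain ⟨δ, hδ, hδ'⟩ := Metric.eventually_nhds_iff.1 hev
  -- choose `t`
  obtain ⟨t, ht0, htδ, htc⟩ : ∃ t : ℝ, 0 < t ∧ t < δ ∧ t * |c| < 1 := by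
    refine ⟨min (δ / 2) (1 / (2 * |c|)), ?_, ?_, ?_⟩
    · have : 0 < |c| := abs_pos.2 hc
      positivity
    · exact (min_le_left _ _).trans_lt (by linarith)
    · have hc' : 0 < |c| := abs_pos.2 hc
      calc min (δ / 2) (1 / (2 * |c|)) * |c| ≤ 1 / (2 * |c|) * |c| :=
            mul_le_mul_of_nonneg_right (min_le_right _ _) hc'.le
        _ = 1 / 2 := by field_simp
        _ < 1 := by norm_num
  have hN : N (ker0 e - kerT Φ e t) < 1 := by
    refine (N_sub_le h2 he t).trans_lt ?_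
    rw [← ENNReal.ofReal_one]
    refine (ENNReal.ofReal_lt_ofReal_iff one_pos).2 (hδ' ?_)
    simp [abs_of_pos ht0, htδ]
  have key := T_eq_of_close (trA (q := q)) (c := (q : ℝ≥0)) trA_le trA_cont trA_comm
    (ker0_mem (Subgroup.centralizer {g}) he) (kerT_mem h1 he t) (kmul_ker0 he) (kmul_kerT Φ he t) hN
  rw [T_ker0, T_kerT h3] at key
  by_contra hne
  have hexp : Complex.exp (Complex.I * ((- (t * c) : ℝ) : ℂ)) = 1 := by
    have : Complex.exp (Complex.I * ((- (t * c) : ℝ) : ℂ)) * coeff e g = 1 * coeff e g := by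
      rw [one_mul]; exact key.symm
    exact mul_right_cancel₀ hne this
  rw [Complex.exp_eq_one_iff] at hexp
  obtain ⟨n, hn⟩ := hexp
  have hn' : -(t * c) = n * (2 * Real.pi) := by
    have h5 : Complex.I * ((-(t * c) : ℝ) : ℂ) = Complex.I * ((n * (2 * Real.pi) : ℝ) : ℂ) := by
      rw [hn]; push_cast; ring
    have h6 := mul_left_cancel₀ Complex.I_ne_zero h5
    exact_mod_cast h6
  have habs : |t * c| < 1 := by rw [abs_mul, abs_of_pos ht0]; exact htc
  have hn0 : n ≠ 0 := by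
    rintro rfl
    have : t * c = 0 := by simpa using hn'
    rcases mul_eq_zero.1 this with h | h
    · exact ht0.ne' h
    · exact hc h
  have h7 : (1 : ℝ) ≤ |(n : ℝ)| := by
    exact_mod_cast Int.one_le_abs hn0
  have h8 : |t * c| = |(n : ℝ)| * (2 * Real.pi) := by
    rw [← abs_neg, hn', abs_mul, abs_of_pos (by positivity : (0 : ℝ) < 2 * Real.pi)]
  have h9 : 2 * Real.pi ≤ |t * c| := by
    rw [h8]; nlinarith [Real.pi_pos]
  have := Real.pi_gt_three
  linarith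

end Vale.Agent.P184
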