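import Mathlib

/-!
# Definitions for the `ℓ¹`-Bass conjecture

The Banach algebra `ℓ¹(G)` of a discrete group `G` consists of the absolutely summable functions
`G → ℂ` with the convolution product `(a * b)(g) = ∑ h, a(h) b(h⁻¹ g)`.
-/

namespace Vale.Agent.P184

/-- `IsIdem q e`: the `q × q` matrix `e` of functions on `G` is an idempotent of `M_q(ℓ¹(G))`, that is,
all entries are absolutely summable and `e * e = e` for the matrix product with entries multiplied by
convolution. -/
structure IsIdem {G : Type*} [Group G] (q : ℕ) (e : Fin q → Fin q → G → ℂ) : Prop where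
  /-- the entries lie in `ℓ¹(G)` -/
  summable : ∀ i j, Summable fun g => ‖e i j g‖
  /-- the matrix equals its square -/
  mul_self : ∀ i j g, ∑ k, ∑' h, e i k h * e k j (h⁻¹ * g) = e i j g

/-- The coefficient of the Hattori–Stallings trace of `e` at the conjugacy class of `g`:
the sum of `∑ i, e i i x` over all `x` conjugate to `g`. -/
noncomputable def coeff {G : Type*} [Group G] {q : ℕ} (e : Fin q → Fin q → G → ℂ) (g : G) : ℂ :=
  ∑' x : {x : G // IsConj g x}, ∑ i, e i i x.1

/-- The assertion of the `ℓ¹`-Bass conjecture for the group `G`: for every idempotent matrix over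
`ℓ¹(G)` there is a finite set `F` of conjugacy classes of elements of finite order outside of which
all coefficients of the Hattori–Stallings trace vanish. -/
def L1Bass (G : Type*) [Group G] : Prop :=
  ∀ (q : ℕ) (e : Fin q → Fin q → G → ℂ), IsIdem q e →
    ∃ F : Set (ConjClasses G), F.Finite ∧ (∀ g : G, ConjClasses.mk g ∈ F → IsOfFinOrder g) ∧
      ∀ g : G, ConjClasses.mk g ∉ F → coeff e g = 0

/-- CAT(0) spaces, defined by the comparison inequality of Bruhat and Tits: for any two points `p`, `q`
and `0 ≤ t ≤ 1` there is a point `m` (dividing `pq` in the ratio `t : 1 - t`) such that the distance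
from any `x` to `m` is at most the corresponding distance in the Euclidean comparison triangle. -/
def IsCAT0 (X : Type*) [MetricSpace X] : Prop :=
  ∀ p q : X, ∀ t ∈ Set.Icc (0 : ℝ) 1, ∃ m : X, ∀ x : X,
    dist x m ^ 2 ≤ (1 - t) * dist x p ^ 2 + t * dist x q ^ 2 - t * (1 - t) * dist p q ^ 2

/-- A geometric action: by isometries, properly discontinuous and cocompact. -/
structure IsGeometricAction (G : Type*) [Group G] (X : Type*) [MetricSpace X] [MulAction G X] :
    Prop where
  /-- the action is by isometries -/
  isometry : ∀ (g : G) (x y : X), dist (g • x) (g • y) = dist x y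
  /-- the action is properly discontinuous -/
  proper : ∀ K : Set X, IsCompact K → {g : G | ∃ x ∈ K, g • x ∈ K}.Finite
  /-- the translates of some compact set cover the space -/
  cocompact : ∃ K : Set X, IsCompact K ∧ ∀ x : X, ∃ g : G, g • x ∈ K

/-- A mean: a positive normalized linear functional on the bounded real functions on `H` (its values
on unbounded functions are irrelevant). -/
def IsMean {H : Type*} (m : (H → ℝ) → ℝ) : Prop :=
  (∀ f₁ f₂ : H → ℝ, (∃ C, ∀ x, |f₁ x| ≤ C) → (∃ C, ∀ x, |f₂ x| ≤ C) →
      m (fun x => f₁ x + f₂ x) = m f₁ + m f₂) ∧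
    (∀ (c : ℝ) (f : H → ℝ), (∃ C, ∀ x, |f x| ≤ C) → m (fun x => c * f x) = c * m f) ∧
    (∀ f : H → ℝ, (∃ C, ∀ x, |f x| ≤ C) → (∀ x, 0 ≤ f x) → 0 ≤ m f) ∧
    m (fun _ => 1) = 1

/-- Amenability of a discrete group: existence of a left-invariant mean on the bounded real
functions. -/
def IsAmenable (H : Type*) [Group H] : Prop :=
  ∃ m : (H → ℝ) → ℝ, IsMean m ∧
    ∀ (h : H) (f : H → ℝ), (∃ C, ∀ x, |f x| ≤ C) → m (fun x => f (h * x)) = m f

end Vale.Agent.P184
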