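import Mathlib

set_option linter.unusedSectionVars false

namespace Vale.Agent.P184

open Cardinal

/-- A countable extension field of a countable domain embeds into every uncountable algebraically
closed extension of this domain. -/
theorem exists_embedding (R K Ω : Type*) [CommRing R] [IsDomain R] [Countable R] [Field K]
    [Countable K] [Algebra R K] [FaithfulSMul R K] [Field Ω] [IsAlgClosed Ω] [Algebra R Ω]
    [FaithfulSMul R Ω] [Uncountable Ω] : Nonempty (K →ₐ[R] Ω) := by
  obtain ⟨s, hs⟩ := exists_isTranscendenceBasis R K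
  obtain ⟨t, ht⟩ := exists_isTranscendenceBasis R Ω
  have htunc : Uncountable t := by
    by_contra hcon
    rw [not_uncountable_iff] at hcon
    have h1 := IsAlgClosed.cardinal_le_max_transcendence_basis ((↑) : t → Ω) ht
    have h2 : #R ≤ ℵ₀ := mk_le_aleph0
    have h3 : #t ≤ ℵ₀ := mk_le_aleph0
    have h4 : ℵ₀ < #Ω := aleph0_lt_mk
    have h5 := h1.trans (max_le (max_le (lift_le_aleph0.2 h2) (lift_le_aleph0.2 h3)) le_rfl)
    have h6 := lift_le_aleph0.1 h5
    exact absurd h6 (not_le.2 h4)
  have hinf : Infinite t := inferInstance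
  obtain ⟨f, hf⟩ : ∃ f : s → t, Function.Injective f := by
    have hc : Countable s := inferInstance
    obtain ⟨g, hg⟩ := hc.exists_injective_nat
    exact ⟨fun i => (Infinite.natEmbedding t) (g i), (Infinite.natEmbedding t).injective.comp hg⟩
  have hw : AlgebraicIndependent R (fun i : s => ((f i : t) : Ω)) := ht.1.comp f hf
  let A := Algebra.adjoin R (Set.range ((↑) : s → K))
  have halg : Algebra.IsAlgebraic A K := hs.isAlgebraic
  let φ : A →ₐ[R] Ω := (MvPolynomial.aeval fun i : s => ((f i : t) : Ω)).comp
    (hs.1.aevalEquiv.symm : A →ₐ[R] MvPolynomial s R)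
  have hφ : Function.Injective φ := by
    intro a b hab
    exact hs.1.aevalEquiv.symm.injective (hw hab)
  let : Algebra A Ω := φ.toRingHom.toAlgebra
  have h1 : FaithfulSMul A Ω := (faithfulSMul_iff_algebraMap_injective A Ω).2 hφ
  have h3 : IsScalarTower R A Ω := IsScalarTower.of_algebraMap_eq fun x => (φ.commutes x).symm
  exact ⟨(IsAlgClosed.lift (R := A) (S := K) (M := Ω)).restrictScalars R⟩

end Vale.Agent.P184
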