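import Vale.Agent.P184.Embed

set_option linter.unusedSectionVars false

open scoped NNReal LaurentSeries Polynomial

namespace Vale.Agent.P184

open Valuation

/-- The rank one structure on the valuation of the field of Laurent series. -/
@[instance_reducible]
noncomputable def rankOneLaurent (k : Type*) [Field k] :
    Valuation.RankOne (Valued.v : Valuation k⸨X⸩ (WithZero (Multiplicative ℤ))) where
  hom' := (WithZeroMulInt.toNNReal (e := (2 : ℝ≥0)) two_ne_zero).comp MonoidWithZeroHom.ValueGroup₀.embedding
  strictMono' := (WithZeroMulInt.toNNReal_strictMono (e := (2 : ℝ≥0)) one_lt_two).comp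
    MonoidWithZeroHom.ValueGroup₀.embedding_strictMono
  exists_val_nontrivial := by
    refine ⟨HahnSeries.single 1 1, ?_⟩
    have h := LaurentSeries.valuation_single_zpow (K := k) 1
    rw [h]
    constructor
    · exact WithZero.coe_ne_zero
    · decide

/-- A transcendental element of a countable field has absolute value different from one for some
embedding into a normed field. -/
theorem exists_norm_transcendental (k : Type) [Field k] [Countable k] (K : Type*) [Field K]
    [Countable K] [Algebra k K] (a : K) (ha : Transcendental k a) :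
    ∃ (Ω : Type) (_ : NormedField Ω) (σ : K →+* Ω), ‖σ a‖ ≠ 1 := by
  let : Valuation.RankOne (Valued.v : Valuation k⸨X⸩ (WithZero (Multiplicative ℤ))) := rankOneLaurent k
  let i1 : NontriviallyNormedField k⸨X⸩ := Valued.toNontriviallyNormedField k⸨X⸩ (WithZero (Multiplicative ℤ))
  have i2 : IsUltrametricDist k⸨X⸩ := Valued.instIsUltrametricDist k⸨X⸩ (WithZero (Multiplicative ℤ))
  let Ω := AlgebraicClosure k⸨X⸩
  let i3 : NormedField Ω := spectralNorm.normedField k⸨X⸩ Ω
  have hunc : Uncountable Ω := by
    have h1 : Function.Injective (fun s : Set ℕ => algebraMap k⸨X⸩ Ω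
        ((PowerSeries.mk (fun n => by classical exact if n ∈ s then (1 : k) else 0) : PowerSeries k) : k⸨X⸩)) := by
      intro s t hst
      have h2 := (algebraMap k⸨X⸩ Ω).injective hst
      have h3 := HahnSeries.ofPowerSeries_injective h2
      ext n
      have h4 := congrArg (PowerSeries.coeff n) h3
      rw [PowerSeries.coeff_mk, PowerSeries.coeff_mk] at h4
      by_cases hs : n ∈ s <;> by_cases ht : n ∈ t <;> simp_all
    have : Uncountable (Set ℕ) := by
      rw [← Cardinal.aleph0_lt_mk_iff, Cardinal.mk_set, Cardinal.mk_nat]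
      exact Cardinal.cantor _
    exact h1.uncountable
  let i4 : Algebra k[X] K := (Polynomial.aeval (R := k) a).toRingHom.toAlgebra
  have i5 : FaithfulSMul k[X] K := (faithfulSMul_iff_algebraMap_injective _ _).2
    (transcendental_iff_injective.1 ha)
  have i6 : Countable k[X] := by
    rw [← Cardinal.mk_le_aleph0_iff]
    exact (Polynomial.cardinalMk_le_max).trans (max_le Cardinal.mk_le_aleph0 le_rfl)
  have i7 : FaithfulSMul k[X] Ω := by
    rw [faithfulSMul_iff_algebraMap_injective, IsScalarTower.algebraMap_eq k[X] k⸨X⸩ Ω]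
    exact (algebraMap k⸨X⸩ Ω).injective.comp (FaithfulSMul.algebraMap_injective k[X] k⸨X⸩)
  obtain ⟨σ⟩ := exists_embedding k[X] K Ω
  refine ⟨Ω, i3, σ.toRingHom, ?_⟩
  have h1 : σ a = algebraMap k⸨X⸩ Ω (HahnSeries.single 1 1) := by
    have h2 : a = algebraMap k[X] K Polynomial.X := by
      show a = Polynomial.aeval a Polynomial.X
      simp
    have h3 := σ.commutes Polynomial.X
    rw [← h2] at h3
    rw [h3, IsScalarTower.algebraMap_apply k[X] k⸨X⸩ Ω]
    congr 1
    have h6 : (algebraMap k[X] k⸨X⸩ Polynomial.X) = ((PowerSeries.X : PowerSeries k) : k⸨X⸩) := by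
      simp
    rw [h6]
    exact HahnSeries.ofPowerSeries_X
  show ‖σ a‖ ≠ 1
  rw [h1]
  have h4 : ‖algebraMap k⸨X⸩ Ω (HahnSeries.single 1 1)‖ = ‖(HahnSeries.single 1 1 : k⸨X⸩)‖ :=
    spectralNorm_extends _
  rw [h4]
  have h5 : ‖(HahnSeries.single 1 1 : k⸨X⸩)‖ < 1 := by
    rw [Valued.toNormedField.norm_lt_one_iff, LaurentSeries.valuation_single_zpow (K := k) 1]
    decide
  exact h5.ne

end Vale.Agent.P184
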