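import Vale.Agent.P184.Fields

set_option linter.unusedSectionVars false

open scoped NNReal Polynomial

namespace Vale.Agent.P184

lemma one_lt_norm_of_dvd_den (p : ℕ) [hp : Fact p.Prime] (c : ℚ) (h : p ∣ c.den) :
    1 < ‖(c : ℚ_[p])‖ := by
  have hden : ‖((c.den : ℕ) : ℚ_[p])‖ < 1 := by
    have := (Padic.norm_intCast_lt_one_iff (p := p) (k := (c.den : ℤ))).2 (by exact_mod_cast h)
    simpa using this
  have hnum : ‖((c.num : ℤ) : ℚ_[p])‖ = 1 := by
    refine (Padic.norm_intCast_eq_one_iff (p := p) (z := c.num)).2 ?_
    have h1 : IsCoprime c.num (c.den : ℤ) := by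
      rw [Int.isCoprime_iff_gcd_eq_one]
      exact c.reduced
    exact h1.of_isCoprime_of_dvd_right (by exact_mod_cast h)
  have hden0 : ((c.den : ℕ) : ℚ_[p]) ≠ 0 := by
    exact_mod_cast c.den_ne_zero
  have h2 : (c : ℚ_[p]) = ((c.num : ℤ) : ℚ_[p]) / ((c.den : ℕ) : ℚ_[p]) := Rat.cast_def c
  rw [h2, norm_div, hnum, one_div]
  exact (one_lt_inv₀ (norm_pos_iff.2 hden0)).2 hden

/-- An algebraic number which is not an algebraic integer has a conjugate of absolute value greater
than one in an algebraic closure of some `ℚ_p`. -/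
lemma exists_root_padic {K : Type*} [Field K] [CharZero K] (a : K) (ha : IsIntegral ℚ a)
    (hna : ¬ IsIntegral ℤ a) :
    ∃ (p : ℕ) (_ : Fact p.Prime) (μ : PadicAlgCl p), Polynomial.aeval μ (minpoly ℚ a) = 0 ∧ 1 < ‖μ‖ := by
  classical
  -- some coefficient is not an integer
  have h1 : ∃ i, ((minpoly ℚ a).coeff i).den ≠ 1 := by
    by_contra hcon
    push Not at hcon
    apply hna
    have h2 : minpoly ℚ a ∈ Polynomial.lifts (Int.castRingHom ℚ) := by
      rw [Polynomial.lifts_iff_coeff_lifts]
      intro i
      exact ⟨((minpoly ℚ a).coeff i).num, by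
        have := Rat.den_eq_one_iff _ |>.1 (hcon i)
        simpa using this⟩
    obtain ⟨q, hq, hdeg, hmonic⟩ := Polynomial.lifts_and_degree_eq_and_monic h2 (minpoly.monic ha)
    refine ⟨q, hmonic, ?_⟩
    have h3 : Polynomial.aeval a (minpoly ℚ a) = 0 := minpoly.aeval ℚ a
    rw [← hq] at h3
    have h4 : Polynomial.aeval a (q.map (algebraMap ℤ ℚ)) = 0 := h3
    rw [Polynomial.aeval_map_algebraMap ℚ] at h4
    exact h4
  obtain ⟨i, hi⟩ := h1
  obtain ⟨p, hp, hpd⟩ := Nat.exists_prime_and_dvd hi
  have : Fact p.Prime := ⟨hp⟩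
  refine ⟨p, this, ?_⟩
  by_contra hcon
  push Not at hcon
  let O : Subring (PadicAlgCl p) :=
    { carrier := {x | ‖x‖ ≤ 1}
      mul_mem' := by
        intro x y hx hy
        show ‖x * y‖ ≤ 1
        rw [norm_mul]
        exact mul_le_one₀ hx (norm_nonneg _) hy
      one_mem' := by show ‖(1 : PadicAlgCl p)‖ ≤ 1; rw [norm_one]
      add_mem' := by
        intro x y hx hy
        exact (PadicAlgCl.isNonarchimedean p x y).trans (max_le hx hy)
      zero_mem' := by show ‖(0 : PadicAlgCl p)‖ ≤ 1; rw [norm_zero]; exact zero_le_one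
      neg_mem' := by intro x hx; show ‖-x‖ ≤ 1; rw [norm_neg]; exact hx }
  set P := (minpoly ℚ a).map (algebraMap ℚ (PadicAlgCl p)) with hP
  have hsplit : P.Splits := IsAlgClosed.splits _
  have hPm : P.Monic := (minpoly.monic ha).map _
  have hprod : P = (P.roots.map fun r => Polynomial.X - Polynomial.C r).prod :=
    hsplit.eq_prod_roots_of_monic hPm
  have hlift : P ∈ Polynomial.lifts O.subtype := by
    rw [hprod]
    refine Subsemiring.multiset_prod_mem _ _ ?_
    intro f hf
    obtain ⟨r, hr, rfl⟩ := Multiset.mem_map.1 hf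
    have hr' : Polynomial.aeval r (minpoly ℚ a) = 0 := by
      have := (Polynomial.mem_roots'.1 hr).2
      rw [hP, Polynomial.IsRoot.def, Polynomial.eval_map_algebraMap] at this
      exact this
    have hrO : r ∈ O := hcon r hr'
    refine ⟨Polynomial.X - Polynomial.C (⟨r, hrO⟩ : O), ?_⟩
    simp
  have hcoeff : P.coeff i ∈ O := by
    obtain ⟨x, hx⟩ := (Polynomial.lifts_iff_coeff_lifts P).1 hlift i
    rw [← hx]
    exact x.2
  have h4 : P.coeff i = ((((minpoly ℚ a).coeff i : ℚ) : ℚ_[p]) : PadicAlgCl p) := by
    rw [hP, Polynomial.coeff_map]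
    have := IsScalarTower.algebraMap_apply ℚ ℚ_[p] (PadicAlgCl p) ((minpoly ℚ a).coeff i)
    rw [this]
    simp
  have h5 : ‖P.coeff i‖ ≤ 1 := hcoeff
  rw [h4, PadicAlgCl.norm_extends] at h5
  exact absurd h5 (not_le.2 (one_lt_norm_of_dvd_den p _ hpd))

/-- In a countable field, an element which is not a root of unity has absolute value different from
one for some embedding of the field into a normed field. -/
theorem exists_norm_ne_one (K : Type*) [Field K] [Countable K] (a : K) (ha0 : a ≠ 0)
    (ha : ∀ n : ℕ, 0 < n → a ^ n ≠ 1) :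
    ∃ (Ω : Type) (_ : NormedField Ω) (σ : K →+* Ω), ‖σ a‖ ≠ 1 := by
  obtain ⟨p, hp⟩ := CharP.exists K
  rcases CharP.char_is_prime_or_zero K p with hprime | rfl
  · -- positive characteristic
    have : Fact p.Prime := ⟨hprime⟩
    let : Algebra (ZMod p) K := ZMod.algebra K p
    have htr : Transcendental (ZMod p) a := by
      intro halg
      have hint : IsIntegral (ZMod p) a := halg.isIntegral
      have hfin : FiniteDimensional (ZMod p) (IntermediateField.adjoin (ZMod p) {a}) :=
        IntermediateField.adjoin.finiteDimensional hint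
      have hF : Finite (IntermediateField.adjoin (ZMod p) {a}) := Module.finite_of_finite (ZMod p)
      let b : (IntermediateField.adjoin (ZMod p) {a}) := IntermediateField.AdjoinSimple.gen (ZMod p) a
      have hb : (b : K) = a := IntermediateField.AdjoinSimple.coe_gen (ZMod p) a
      have hb0 : b ≠ 0 := by
        intro h
        apply ha0
        rw [← hb, h]; rfl
      let u : (IntermediateField.adjoin (ZMod p) {a})ˣ := Units.mk0 b hb0
      have hfo : IsOfFinOrder u := isOfFinOrder_of_finite u
      obtain ⟨n, hn, hun⟩ := isOfFinOrder_iff_pow_eq_one.1 hfo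
      apply ha n hn
      have h1 : b ^ n = 1 := by
        have := congrArg Units.val hun
        rw [Units.val_pow_eq_pow_val] at this
        exact this
      rw [← hb]
      exact_mod_cast congrArg (Subtype.val) h1
    exact exists_norm_transcendental (ZMod p) K a htr
  · -- characteristic zero
    have : CharZero K := CharP.charP_to_charZero K
    by_cases halg : IsAlgebraic ℚ a
    · have hint : IsIntegral ℚ a := halg.isIntegral
      have hfin : FiniteDimensional ℚ (IntermediateField.adjoin ℚ {a}) :=
        IntermediateField.adjoin.finiteDimensional hint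
      let k := IntermediateField.adjoin ℚ {a}
      have hk : Countable k := (Subtype.countable : Countable {x : K // x ∈ k})
      let b : k := IntermediateField.AdjoinSimple.gen ℚ a
      have hb : (b : K) = a := IntermediateField.AdjoinSimple.coe_gen ℚ a
      by_cases hZ : IsIntegral ℤ a
      · -- archimedean
        have hnf : NumberField k := @NumberField.mk k _ inferInstance hfin
        have hbZ : IsIntegral ℤ b := by
          rw [← isIntegral_algebraMap_iff (A := k) (B := K) (algebraMap k K).injective]
          exact hZ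
        have hex : ∃ φ : k →+* ℂ, ‖φ b‖ ≠ 1 := by
          by_contra hcon
          push Not at hcon
          obtain ⟨n, hn, hbn⟩ := NumberField.Embeddings.pow_eq_one_of_norm_eq_one k ℂ hbZ hcon
          apply ha n hn
          rw [← hb]
          exact_mod_cast congrArg (Subtype.val) hbn
        obtain ⟨φ, hφ⟩ := hex
        let : Algebra k ℂ := φ.toAlgebra
        have i7 : FaithfulSMul k ℂ := (faithfulSMul_iff_algebraMap_injective _ _).2 φ.injective
        have i8 : Uncountable ℂ := by
          rw [← Cardinal.aleph0_lt_mk_iff, Cardinal.mk_complex]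
          exact Cardinal.aleph0_lt_continuum
        obtain ⟨σ⟩ := exists_embedding k K ℂ
        refine ⟨ℂ, inferInstance, σ.toRingHom, ?_⟩
        have h1 : σ a = φ b := by
          rw [← hb]; exact σ.commutes b
        show ‖σ a‖ ≠ 1
        rwa [h1]
      · -- non-archimedean
        obtain ⟨p, hp, μ, hμ, hμ1⟩ := exists_root_padic a hint hZ
        have hroot : μ ∈ (minpoly ℚ a).aroots (PadicAlgCl p) := by
          rw [Polynomial.mem_aroots]
          exact ⟨minpoly.ne_zero hint, hμ⟩
        let φ : k →ₐ[ℚ] PadicAlgCl p :=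
          (IntermediateField.algHomAdjoinIntegralEquiv ℚ hint).symm ⟨μ, hroot⟩
        have hφ : φ b = μ := IntermediateField.algHomAdjoinIntegralEquiv_symm_apply_gen ℚ hint ⟨μ, hroot⟩
        let : Algebra k (PadicAlgCl p) := φ.toRingHom.toAlgebra
        have i7 : FaithfulSMul k (PadicAlgCl p) :=
          (faithfulSMul_iff_algebraMap_injective _ _).2 φ.toRingHom.injective
        have i8 : Uncountable (PadicAlgCl p) := by
          have h1 : Uncountable ℚ_[p] := by
            rw [← Cardinal.aleph0_lt_mk_iff]
            exact Cardinal.aleph0_lt_continuum.trans_le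
              (continuum_le_cardinal_of_nontriviallyNormedField ℚ_[p])
          exact (algebraMap ℚ_[p] (PadicAlgCl p)).injective.uncountable
        obtain ⟨σ⟩ := exists_embedding k K (PadicAlgCl p)
        refine ⟨PadicAlgCl p, inferInstance, σ.toRingHom, ?_⟩
        have h1 : σ a = μ := by
          rw [← hφ]
          nth_rw 1 [← hb]
          exact σ.commutes b
        show ‖σ a‖ ≠ 1
        rw [h1]
        exact hμ1.ne'
    · exact exists_norm_transcendental ℚ K a halg

end Vale.Agent.P184
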