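import Vale.Agent.P184.Crit

set_option linter.unusedSectionVars false

namespace Vale.Agent.P184

variable {G : Type*} [Group G]

/-- Sufficient condition for the vanishing. -/
def Good (g : G) : Prop :=
  ∃ (Φ : G → ℝ) (B : G → ℝ),
    (∀ z ∈ Subgroup.centralizer {g}, ∀ k x, Φ (z * k) - Φ (z * x) = Φ k - Φ x) ∧
    (∀ x k, |Φ (k * x) - Φ k| ≤ B x) ∧ Φ g ≠ Φ 1

theorem Good.coeff_eq_zero {g : G} (h : Good g) {q : ℕ} {e : Fin q → Fin q → G → ℂ}
    (he : IsIdem q e) : coeff e g = 0 := by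
  obtain ⟨Φ, B, h1, h2, h3⟩ := h
  refine Vale.Agent.P184.coeff_eq_zero Φ B h1 h2 (Φ g - Φ 1) (sub_ne_zero.2 h3) ?_ he
  intro k
  have hg : g ∈ Subgroup.centralizer {g} := by
    rw [Subgroup.mem_centralizer_singleton_iff]
  have := h1 g hg k 1
  rw [mul_one] at this
  linarith

/-- If `g ^ n` is good then `g` is good. -/
theorem Good.of_pow {g : G} {n : ℕ} (h : Good (g ^ n)) : Good g := by
  obtain ⟨Φ, B, h1, h2, h3⟩ := h
  have hsub : ∀ z ∈ Subgroup.centralizer {g}, z ∈ Subgroup.centralizer {g ^ n} := by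
    intro z hz
    rw [Subgroup.mem_centralizer_singleton_iff] at hz ⊢
    exact ((show Commute z g from hz).pow_right n)
  refine ⟨Φ, B, fun z hz => h1 z (hsub z hz), h2, fun h => h3 ?_⟩
  have hg : g ∈ Subgroup.centralizer {g} := by
    rw [Subgroup.mem_centralizer_singleton_iff]
  have : ∀ m : ℕ, Φ (g ^ m) = Φ 1 := by
    intro m
    induction m with
    | zero => simp
    | succ m ih =>
      have := h1 g (hsub g hg) (g ^ m) 1
      rw [mul_one, ← pow_succ'] at this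
      linarith
  exact this n

/-- The infimal convolution: a homomorphism on a subgroup which is bounded by a subadditive
function extends to an equivariant function with bounded right increments. -/
theorem exists_ext (H : Subgroup G) (φ : H → ℝ) (hφ : ∀ x y, φ (x * y) = φ x + φ y)
    (L : G → ℝ) (hL : ∀ x y, L (x * y) ≤ L x + L y) (hφL : ∀ x : H, |φ x| ≤ L x) :
    ∃ Φ : G → ℝ, (∀ (z : H) k, Φ (z * k) = φ z + Φ k) ∧ (∀ x k, |Φ (k * x) - Φ k| ≤ max (L x) (L x⁻¹)) := by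
  have hφ1 : φ 1 = 0 := by
    have := hφ 1 1
    rw [mul_one] at this
    linarith
  have hinv : ∀ x, φ x⁻¹ = - φ x := by
    intro x
    have := hφ x x⁻¹
    rw [mul_inv_cancel, hφ1] at this
    linarith
  let F : G → H → ℝ := fun k z => φ z + L ((z : G)⁻¹ * k)
  have hbdd : ∀ k, BddBelow (Set.range (F k)) := by
    intro k
    refine ⟨- L k⁻¹, ?_⟩
    rintro _ ⟨z, rfl⟩
    have h1 : L ((z : G)⁻¹) ≤ L ((z : G)⁻¹ * k) + L k⁻¹ := by
      have := hL ((z : G)⁻¹ * k) k⁻¹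
      rwa [mul_inv_cancel_right] at this
    have h2 : |φ z| ≤ L ((z : G)⁻¹) := by
      have := hφL z⁻¹
      rw [hinv, abs_neg] at this
      simpa using this
    have h3 := neg_abs_le (φ z)
    show - L k⁻¹ ≤ φ z + L ((z : G)⁻¹ * k)
    linarith
  have hle : ∀ k x, (⨅ z, F (k * x) z) ≤ (⨅ z, F k z) + L x := by
    intro k x
    rw [← sub_le_iff_le_add]
    refine le_ciInf fun z => ?_
    rw [sub_le_iff_le_add]
    refine (ciInf_le (hbdd _) z).trans ?_
    have := hL ((z : G)⁻¹ * k) x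
    simp only [F]
    rw [← mul_assoc]
    linarith
  refine ⟨fun k => ⨅ z, F k z, ?_, ?_⟩
  · intro w k
    have h1 : ∀ z : H, F (w * k) (w * z) = φ w + F k z := by
      intro z
      simp only [F]
      rw [hφ]
      have : ((w * z : H) : G)⁻¹ * (w * k) = (z : G)⁻¹ * k := by
        push_cast; group
      rw [this]
      ring
    have h2 : (⨅ z, F (w * k) z) = ⨅ z, F (w * k) (w * z) :=
      ((Equiv.mulLeft w).iInf_comp (g := F (w * k))).symm
    show (⨅ z, F (w * k) z) = _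
    rw [h2]
    simp_rw [h1]
    have := (OrderIso.addLeft (φ w)).map_ciInf (hbdd k)
    simpa using this.symm
  · intro x k
    show |(⨅ z, F (k * x) z) - ⨅ z, F k z| ≤ _
    rw [abs_le]
    have h1 := hle k x
    have h2 := hle (k * x) x⁻¹
    rw [mul_inv_cancel_right] at h2
    have h3 := le_max_left (L x) (L x⁻¹)
    have h4 := le_max_right (L x) (L x⁻¹)
    constructor <;> linarith

/-- Homomorphisms on the centralizer bounded by a subadditive function on the group. -/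
theorem good_of_hom {g : G} (φ : Subgroup.centralizer {g} → ℝ) (hφ : ∀ x y, φ (x * y) = φ x + φ y)
    (L : G → ℝ) (hL : ∀ x y, L (x * y) ≤ L x + L y) (hφL : ∀ x : Subgroup.centralizer {g}, |φ x| ≤ L x)
    (hg : φ ⟨g, Subgroup.mem_centralizer_singleton_iff.2 rfl⟩ ≠ 0) : Good g := by
  obtain ⟨Φ, h1, h2⟩ := exists_ext (Subgroup.centralizer {g}) φ hφ L hL hφL
  refine ⟨Φ, _, ?_, h2, ?_⟩
  · intro z hz k x
    rw [h1 ⟨z, hz⟩, h1 ⟨z, hz⟩]
    ring
  · have := h1 ⟨g, Subgroup.mem_centralizer_singleton_iff.2 rfl⟩ 1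
    rw [mul_one] at this
    simp only at this
    rw [this]
    intro h
    apply hg
    linarith

section mean

variable {H : Type*} {m : (H → ℝ) → ℝ} (hm : IsMean m)
include hm

lemma IsMean.const (c : ℝ) : m (fun _ => c) = c := by
  have := hm.2.1 c (fun _ => 1) ⟨1, by simp⟩
  rw [hm.2.2.2] at this
  simpa using this

lemma IsMean.sub {f₁ f₂ : H → ℝ} (h₁ : ∃ C, ∀ x, |f₁ x| ≤ C) (h₂ : ∃ C, ∀ x, |f₂ x| ≤ C) :
    m (fun x => f₁ x - f₂ x) = m f₁ - m f₂ := by
  have h3 : ∃ C, ∀ x, |(-1 : ℝ) * f₂ x| ≤ C := by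
    obtain ⟨C, hC⟩ := h₂
    exact ⟨C, fun x => by simpa using hC x⟩
  have h4 := hm.1 f₁ (fun x => (-1) * f₂ x) h₁ h3
  rw [hm.2.1 (-1) f₂ h₂] at h4
  have h5 : (fun x => f₁ x - f₂ x) = fun x => f₁ x + (-1) * f₂ x := by
    funext x; ring
  rw [h5, h4]; ring

lemma IsMean.abs_le {f : H → ℝ} {C : ℝ} (h : ∀ x, |f x| ≤ C) : |m f| ≤ C := by
  have hb : ∃ C, ∀ x, |f x| ≤ C := ⟨C, h⟩
  have hcb : ∃ C', ∀ _ : H, |C| ≤ C' := ⟨|C|, fun _ => le_rfl⟩
  rw [_root_.abs_le]
  constructor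
  · have h1 : 0 ≤ m (fun x => f x - (-C)) := by
      refine hm.2.2.1 _ ⟨C + |C|, fun x => ?_⟩ fun x => ?_
      · refine (abs_sub _ _).trans ?_
        rw [abs_neg]
        linarith [h x]
      · have := (_root_.abs_le.1 (h x)).1
        linarith
    rw [hm.sub hb ⟨|C|, fun _ => by rw [abs_neg]⟩, hm.const] at h1
    linarith
  · have h1 : 0 ≤ m (fun x => C - f x) := by
      refine hm.2.2.1 _ ⟨|C| + C, fun x => ?_⟩ fun x => ?_
      · refine (abs_sub _ _).trans ?_
        linarith [h x]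
      · have := (_root_.abs_le.1 (h x)).2
        linarith
    rw [hm.sub hcb hb, hm.const] at h1
    linarith

end mean

/-- Undistorted elements with amenable centralizer are good. -/
theorem good_of_amenable {g : G} (hZ : IsAmenable (Subgroup.centralizer {g}))
    (L : G → ℝ) (hL : ∀ x y, L (x * y) ≤ L x + L y) (c : ℝ) (hc : 0 < c)
    (hg : ∀ n : ℤ, c * |(n : ℝ)| ≤ L (g ^ n)) : Good g := by
  -- the homomorphism on the cyclic subgroup
  have hord : ∀ n : ℤ, g ^ n = 1 → n = 0 := by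
    intro n hn
    by_contra hne
    have h1 : ∀ k : ℤ, c * |((n * k : ℤ) : ℝ)| ≤ L 1 := by
      intro k
      have := hg (n * k)
      rwa [zpow_mul, hn, one_zpow] at this
    obtain ⟨k, hk⟩ := exists_nat_gt (L 1 / c)
    have h2 := h1 k
    have h3 : (1 : ℝ) ≤ |(n : ℝ)| := by exact_mod_cast Int.one_le_abs hne
    have h4 : c * k ≤ c * |((n * k : ℤ) : ℝ)| := by
      refine mul_le_mul_of_nonneg_left ?_ hc.le
      push_cast
      rw [abs_mul, Nat.abs_cast]
      nlinarith [Nat.cast_nonneg (α := ℝ) k]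
    rw [div_lt_iff₀ hc] at hk
    linarith
  have hinj : ∀ m n : ℤ, g ^ m = g ^ n → m = n := by
    intro m n hmn
    have : g ^ (m - n) = 1 := by rw [zpow_sub, hmn, mul_inv_cancel]
    have := hord _ this
    omega
  let H : Subgroup G := Subgroup.zpowers g
  have hmem : ∀ x : H, ∃ n : ℤ, g ^ n = x := fun x => Subgroup.mem_zpowers_iff.1 x.2
  choose ν hν using hmem
  have hνadd : ∀ x y, ν (x * y) = ν x + ν y := by
    intro x y
    apply hinj
    rw [zpow_add, hν, hν, hν]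
    rfl
  obtain ⟨Φ₀, h1, h2⟩ := exists_ext H (fun x => c * (ν x : ℝ))
    (by intro x y; rw [hνadd]; push_cast; ring) L hL
    (by intro x; rw [abs_mul, abs_of_pos hc, ← hν x]; exact hg (ν x))
  have h1g : ∀ k, Φ₀ (g * k) = c + Φ₀ k := by
    intro k
    have h := h1 ⟨g, Subgroup.mem_zpowers g⟩ k
    have : ν ⟨g, Subgroup.mem_zpowers g⟩ = 1 := by
      apply hinj; rw [hν]; simp
    rw [this] at h
    simpa using h
  -- average
  obtain ⟨m, hm, hinv⟩ := hZ
  -- right invariant mean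
  let m' : (Subgroup.centralizer {g} → ℝ) → ℝ := fun f => m (fun x => f x⁻¹)
  have hbinv : ∀ {f : Subgroup.centralizer {g} → ℝ}, (∃ C, ∀ x, |f x| ≤ C) → ∃ C, ∀ x, |f x⁻¹| ≤ C := by
    rintro f ⟨C, hC⟩; exact ⟨C, fun x => hC _⟩
  have hm' : IsMean m' := by
    refine ⟨?_, ?_, ?_, ?_⟩
    · intro f₁ f₂ h₁ h₂; exact hm.1 _ _ (hbinv h₁) (hbinv h₂)
    · intro c f h; exact hm.2.1 c _ (hbinv h)
    · intro f h h0; exact hm.2.2.1 _ (hbinv h) fun x => h0 _
    · exact hm.2.2.2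
  have hinv' : ∀ (h : Subgroup.centralizer {g}) (f : Subgroup.centralizer {g} → ℝ),
      (∃ C, ∀ x, |f x| ≤ C) → m' (fun x => f (x * h)) = m' f := by
    intro h f hf
    show m (fun x => f (x⁻¹ * h)) = m (fun x => f x⁻¹)
    have := hinv h⁻¹ (fun x => f x⁻¹) (hbinv hf)
    rw [← this]
    simp
  have hbd : ∀ k x : G, ∃ C, ∀ z : Subgroup.centralizer {g}, |Φ₀ (z * (k * x)) - Φ₀ (z * k)| ≤ C := by
    intro k x
    refine ⟨max (L x) (L x⁻¹), fun z => ?_⟩
    rw [← mul_assoc]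
    exact h2 x _
  have hbd1 : ∀ k : G, ∃ C, ∀ z : Subgroup.centralizer {g}, |Φ₀ (z * k) - Φ₀ z| ≤ C := by
    intro k
    obtain ⟨C, hC⟩ := hbd 1 k
    exact ⟨C, fun z => by simpa using hC z⟩
  obtain ⟨Φ, hΦ⟩ : ∃ Φ : G → ℝ, ∀ k, Φ k = m' (fun z => Φ₀ (z * k) - Φ₀ z) := ⟨_, fun _ => rfl⟩
  have hdiff : ∀ k x : G, Φ (k * x) - Φ k = m' (fun z => Φ₀ (z * k * x) - Φ₀ (z * k)) := by
    intro k x
    rw [hΦ, hΦ, ← hm'.sub (hbd1 (k * x)) (hbd1 k)]
    have e1 : (fun z : Subgroup.centralizer {g} => Φ₀ (z * (k * x)) - Φ₀ z - (Φ₀ (z * k) - Φ₀ z)) =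
        fun z : Subgroup.centralizer {g} => Φ₀ (z * k * x) - Φ₀ (z * k) := by
      funext z
      rw [← mul_assoc]
      ring
    rw [e1]
  have hright : ∀ (w : Subgroup.centralizer {g}) (k : G), Φ (w * k) = Φ k + Φ w := by
    intro w k
    have e1 : Φ ((w : G) * k) - Φ w = m' (fun z => Φ₀ (z * w * k) - Φ₀ (z * w)) := hdiff w k
    have e2 : m' (fun z => Φ₀ (z * w * k) - Φ₀ (z * w)) = Φ k := by
      have := hinv' w (fun z => Φ₀ (z * k) - Φ₀ z) (hbd1 k)
      rw [hΦ, ← this]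
      rfl
    rw [e2] at e1
    linarith
  refine ⟨Φ, fun x => max (L x) (L x⁻¹), ?_, ?_, ?_⟩
  · intro z hz k x
    have h3 := hright ⟨z, hz⟩ k
    have h4 := hright ⟨z, hz⟩ x
    simp only at h3 h4
    rw [h3, h4]
    ring
  · intro x k
    rw [hdiff]
    exact hm'.abs_le fun z => h2 x (z * k)
  · have h5 : Φ 1 = 0 := by
      rw [hΦ]
      have : (fun z : Subgroup.centralizer {g} => Φ₀ (z * (1 : G)) - Φ₀ z) = fun _ => (0 : ℝ) := by
        funext z; simp
      rw [this, hm'.const]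
    have h6 : Φ g = c := by
      rw [hΦ]
      have : (fun z : Subgroup.centralizer {g} => Φ₀ (z * g) - Φ₀ z) = fun _ => c := by
        funext z
        have hz := Subgroup.mem_centralizer_singleton_iff.1 z.2
        rw [hz, h1g]; ring
      rw [this, hm'.const]
    rw [h5, h6]
    exact hc.ne'

end Vale.Agent.P184
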