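import Vale.Agent.P184.Good

open scoped Matrix.Norms.Operator

set_option linter.unusedSectionVars false

namespace Vale.Agent.P184

section

variable {Ω : Type*} [NormedField Ω] {n : ℕ}

lemma norm_entry_le' (A : Matrix (Fin n) (Fin n) Ω) (i j : Fin n) : ‖A i j‖ ≤ ‖A‖ := by
  rw [Matrix.linfty_opNorm_def]
  have h1 : ‖A i j‖₊ ≤ ∑ j, ‖A i j‖₊ := Finset.single_le_sum (f := fun j => ‖A i j‖₊) (fun _ _ => zero_le) (Finset.mem_univ j)
  have h2 : ∑ j, ‖A i j‖₊ ≤ (Finset.univ : Finset (Fin n)).sup fun i => ∑ j, ‖A i j‖₊ :=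
    Finset.le_sup (f := fun i => ∑ j, ‖A i j‖₊) (Finset.mem_univ i)
  exact_mod_cast h1.trans h2

/-- For a subspace `E` of `Ω^n`, the determinant of the restriction to `E` of an endomorphism
preserving `E` is bounded polynomially in the norm of its matrix. -/
lemma det_restrict_le (E : Submodule Ω (Fin n → Ω)) : ∃ C : ℝ, 0 < C ∧
    ∀ (A : Matrix (Fin n) (Fin n) Ω) (hA : ∀ v ∈ E, Matrix.toLin' A v ∈ E),
      ‖LinearMap.det ((Matrix.toLin' A).restrict hA)‖ ≤ C * ‖A‖ ^ (Module.finrank Ω E) := by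
  classical
  obtain ⟨π, hπ⟩ := LinearMap.exists_leftInverse_of_injective E.subtype (LinearMap.ker_eq_bot.2 E.injective_subtype)
  set d := Module.finrank Ω E with hd
  let b : Module.Basis (Fin d) Ω E := Module.finBasis Ω E
  -- constants
  let c : Fin d → Fin d → ℝ := fun i j =>
    ∑ a : Fin n, ∑ k : Fin n, ‖b.repr (π (Pi.single a 1)) i‖ * ‖(b j : Fin n → Ω) k‖
  have hc : ∀ i j, 0 ≤ c i j := fun i j => Finset.sum_nonneg fun a _ => Finset.sum_nonneg fun k _ =>
    mul_nonneg (norm_nonneg _) (norm_nonneg _)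
  let C0 : ℝ := ∑ i, ∑ j, c i j
  have hC0 : ∀ i j, c i j ≤ C0 := fun i j =>
    (Finset.single_le_sum (f := fun j => c i j) (fun j _ => hc i j) (Finset.mem_univ j)).trans
      (Finset.single_le_sum (f := fun i => ∑ j, c i j) (fun i _ => Finset.sum_nonneg fun j _ => hc i j)
        (Finset.mem_univ i))
  have hC00 : 0 ≤ C0 := Finset.sum_nonneg fun i _ => Finset.sum_nonneg fun j _ => hc i j
  refine ⟨(Nat.factorial d : ℝ) * C0 ^ d + 1, by positivity, ?_⟩
  intro A hA
  have hentry : ∀ i j, ‖LinearMap.toMatrix b b ((Matrix.toLin' A).restrict hA) i j‖ ≤ C0 * ‖A‖ := by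
    intro i j
    rw [LinearMap.toMatrix_apply]
    have h1 : ((Matrix.toLin' A).restrict hA) (b j) = π (Matrix.toLin' A (b j : Fin n → Ω)) := by
      have h2 : (E.subtype (((Matrix.toLin' A).restrict hA) (b j))) = Matrix.toLin' A (b j : Fin n → Ω) := rfl
      rw [← h2]
      exact (LinearMap.congr_fun hπ _).symm
    have h3 : Matrix.toLin' A (b j : Fin n → Ω) =
        ∑ a, (∑ k, A a k * (b j : Fin n → Ω) k) • (Pi.single a 1 : Fin n → Ω) := by
      rw [Matrix.toLin'_apply]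
      funext a
      simp [Matrix.mulVec, dotProduct, Finset.sum_apply, Pi.single_apply]
    rw [h1, h3, map_sum, map_sum, Finsupp.finsetSum_apply]
    refine (norm_sum_le _ _).trans ?_
    refine le_trans ?_ (mul_le_mul_of_nonneg_right (hC0 i j) (norm_nonneg A))
    simp only [c]
    rw [Finset.sum_mul]
    refine Finset.sum_le_sum fun a _ => ?_
    rw [map_smul, map_smul, Finsupp.smul_apply, smul_eq_mul, norm_mul, Finset.sum_mul]
    have h4 : ‖∑ k, A a k * (b j : Fin n → Ω) k‖ ≤ ∑ k, ‖A‖ * ‖(b j : Fin n → Ω) k‖ := by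
      refine (norm_sum_le _ _).trans (Finset.sum_le_sum fun k _ => ?_)
      rw [norm_mul]
      exact mul_le_mul_of_nonneg_right (norm_entry_le' A a k) (norm_nonneg _)
    refine (mul_le_mul_of_nonneg_right h4 (norm_nonneg _)).trans (le_of_eq ?_)
    rw [Finset.sum_mul]
    refine Finset.sum_congr rfl fun k _ => ?_
    ring
  have hdet := Matrix.det_le (abv := NormedField.toAbsoluteValue Ω)
    (A := LinearMap.toMatrix b b ((Matrix.toLin' A).restrict hA)) (x := C0 * ‖A‖) hentry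
  rw [LinearMap.det_toMatrix, Fintype.card_fin, nsmul_eq_mul, mul_pow] at hdet
  have h5 : ‖LinearMap.det ((Matrix.toLin' A).restrict hA)‖ ≤ (Nat.factorial d : ℝ) * (C0 ^ d * ‖A‖ ^ d) := hdet
  have h6 : 0 ≤ ‖A‖ ^ d := by positivity
  nlinarith

/-- Linear representations over a normed field: elements with an eigenvalue of absolute value
different from one are good. -/
theorem good_of_norm_eigenvalue {G : Type*} [Group G] (ρ : G →* Matrix.GeneralLinearGroup (Fin n) Ω)
    {g : G} {μ : Ω} (hμ : Module.End.HasEigenvalue (Matrix.toLin' (ρ g : Matrix (Fin n) (Fin n) Ω)) μ)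
    (hμ1 : ‖μ‖ ≠ 1) : Good g := by
  classical
  set E : Submodule Ω (Fin n → Ω) := Module.End.eigenspace (Matrix.toLin' (ρ g : Matrix (Fin n) (Fin n) Ω)) μ
    with hE
  have hmemE : ∀ v, v ∈ E ↔ Matrix.toLin' (ρ g : Matrix (Fin n) (Fin n) Ω) v = μ • v := fun v =>
    Module.End.mem_eigenspace_iff
  have hmul : ∀ x y : G, ((ρ (x * y) : Matrix.GeneralLinearGroup (Fin n) Ω) : Matrix (Fin n) (Fin n) Ω) =
      (ρ x : Matrix (Fin n) (Fin n) Ω) * (ρ y : Matrix (Fin n) (Fin n) Ω) := by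
    intro x y; rw [map_mul]; rfl
  have hone : ((ρ 1 : Matrix.GeneralLinearGroup (Fin n) Ω) : Matrix (Fin n) (Fin n) Ω) = 1 := by
    rw [map_one]; rfl
  -- the centralizer preserves the eigenspace
  have hpres : ∀ z : Subgroup.centralizer {g}, ∀ v ∈ E,
      Matrix.toLin' (ρ z : Matrix (Fin n) (Fin n) Ω) v ∈ E := by
    intro z v hv
    rw [hmemE] at hv ⊢
    have hz := Subgroup.mem_centralizer_singleton_iff.1 z.2
    have h1 : Matrix.toLin' (ρ g : Matrix (Fin n) (Fin n) Ω) (Matrix.toLin' (ρ z : Matrix (Fin n) (Fin n) Ω) v) =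
        Matrix.toLin' (ρ z : Matrix (Fin n) (Fin n) Ω) (Matrix.toLin' (ρ g : Matrix (Fin n) (Fin n) Ω) v) := by
      rw [← Matrix.toLin'_mul_apply, ← Matrix.toLin'_mul_apply, ← hmul, ← hmul, hz]
    rw [h1, hv, map_smul]
  let R : Subgroup.centralizer {g} → (E →ₗ[Ω] E) := fun z =>
    (Matrix.toLin' (ρ z : Matrix (Fin n) (Fin n) Ω)).restrict (hpres z)
  have hRmul : ∀ x y, R (x * y) = R x * R y := by
    intro x y
    apply LinearMap.ext
    intro v
    apply Subtype.ext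
    show Matrix.toLin' (ρ (x * y : G) : Matrix (Fin n) (Fin n) Ω) (v : Fin n → Ω) =
      Matrix.toLin' (ρ x : Matrix (Fin n) (Fin n) Ω) (Matrix.toLin' (ρ y : Matrix (Fin n) (Fin n) Ω) v)
    rw [hmul, Matrix.toLin'_mul_apply]
  have hRone : R 1 = 1 := by
    apply LinearMap.ext
    intro v
    apply Subtype.ext
    show Matrix.toLin' (ρ 1 : Matrix (Fin n) (Fin n) Ω) (v : Fin n → Ω) = v
    rw [hone]; simp
  have hdet0 : ∀ z, LinearMap.det (R z) ≠ 0 := by
    intro z h0
    have h1 : LinearMap.det (R z) * LinearMap.det (R z⁻¹) = 1 := by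
      rw [← map_mul, ← hRmul, mul_inv_cancel, hRone, map_one]
    rw [h0, zero_mul] at h1
    exact zero_ne_one h1
  let φ : Subgroup.centralizer {g} → ℝ := fun z => Real.log ‖LinearMap.det (R z)‖
  have hφ : ∀ x y, φ (x * y) = φ x + φ y := by
    intro x y
    show Real.log ‖LinearMap.det (R (x * y))‖ = _
    rw [hRmul, map_mul, norm_mul, Real.log_mul (norm_ne_zero_iff.2 (hdet0 x)) (norm_ne_zero_iff.2 (hdet0 y))]
  obtain ⟨C, hC, hCle⟩ := det_restrict_le E
  set d := Module.finrank Ω E with hd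
  -- nonzero dimension
  have hEbot : E ≠ ⊥ := hμ
  have hdpos : 0 < d := by
    rw [hd, Module.finrank_pos_iff]
    exact (Submodule.nontrivial_iff_ne_bot).2 hEbot
  have hn : 0 < n := by
    rcases Nat.eq_zero_or_pos n with rfl | h
    · exfalso
      apply hEbot
      rw [Submodule.eq_bot_iff]
      intro v _
      exact Subsingleton.elim _ _
    · exact h
  have : Nonempty (Fin n) := ⟨⟨0, hn⟩⟩
  -- the norm of invertible matrices
  let ℓ : G → ℝ := fun x => max ‖(ρ x : Matrix (Fin n) (Fin n) Ω)‖ ‖(ρ x⁻¹ : Matrix (Fin n) (Fin n) Ω)‖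
  have hinv : ∀ x : G, (1 : ℝ) ≤ ‖(ρ x : Matrix (Fin n) (Fin n) Ω)‖ * ‖(ρ x⁻¹ : Matrix (Fin n) (Fin n) Ω)‖ := by
    intro x
    have h1 : (ρ x : Matrix (Fin n) (Fin n) Ω) * (ρ x⁻¹ : Matrix (Fin n) (Fin n) Ω) = 1 := by
      rw [← hmul, mul_inv_cancel, hone]
    have h2 : ‖(1 : Matrix (Fin n) (Fin n) Ω)‖ = 1 := norm_one
    rw [← h2, ← h1]
    exact norm_mul_le _ _
  have hℓ1 : ∀ x, 1 ≤ ℓ x := by
    intro x
    by_contra hlt
    push Not at hlt
    have h1 := (le_max_left ‖(ρ x : Matrix (Fin n) (Fin n) Ω)‖ ‖(ρ x⁻¹ : Matrix (Fin n) (Fin n) Ω)‖).trans_lt hlt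
    have h2 := (le_max_right ‖(ρ x : Matrix (Fin n) (Fin n) Ω)‖ ‖(ρ x⁻¹ : Matrix (Fin n) (Fin n) Ω)‖).trans_lt hlt
    have h3 := hinv x
    have h4 := norm_nonneg (ρ x : Matrix (Fin n) (Fin n) Ω)
    have h5 := norm_nonneg (ρ x⁻¹ : Matrix (Fin n) (Fin n) Ω)
    nlinarith
  have hℓmul : ∀ x y, ℓ (x * y) ≤ ℓ x * ℓ y := by
    intro x y
    refine max_le ?_ ?_
    · rw [hmul]
      refine (norm_mul_le _ _).trans ?_
      exact mul_le_mul (le_max_left _ _) (le_max_left _ _) (norm_nonneg _) (zero_le_one.trans (hℓ1 x))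
    · rw [mul_inv_rev, hmul]
      refine (norm_mul_le _ _).trans ?_
      rw [mul_comm (ℓ x)]
      exact mul_le_mul (le_max_right _ _) (le_max_right _ _) (norm_nonneg _) (zero_le_one.trans (hℓ1 y))
  set c0 := |Real.log C| with hc0
  let L : G → ℝ := fun x => d * Real.log (ℓ x) + c0
  have hL : ∀ x y, L (x * y) ≤ L x + L y := by
    intro x y
    have h1 : Real.log (ℓ (x * y)) ≤ Real.log (ℓ x) + Real.log (ℓ y) := by
      rw [← Real.log_mul (by linarith [hℓ1 x]) (by linarith [hℓ1 y])]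
      exact Real.log_le_log (by linarith [hℓ1 (x * y)]) (hℓmul x y)
    have h2 : (0 : ℝ) ≤ d := Nat.cast_nonneg _
    have h3 : 0 ≤ c0 := abs_nonneg _
    show (d : ℝ) * Real.log (ℓ (x * y)) + c0 ≤ (d * Real.log (ℓ x) + c0) + (d * Real.log (ℓ y) + c0)
    nlinarith [mul_le_mul_of_nonneg_left h1 h2]
  have hupper : ∀ z : Subgroup.centralizer {g}, φ z ≤ L z := by
    intro z
    have h1 := hCle (ρ z : Matrix (Fin n) (Fin n) Ω) (hpres z)
    have h2 : 0 < ‖LinearMap.det (R z)‖ := norm_pos_iff.2 (hdet0 z)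
    have h3 : ‖(ρ z : Matrix (Fin n) (Fin n) Ω)‖ ≤ ℓ z := le_max_left _ _
    have h4 : ‖LinearMap.det (R z)‖ ≤ C * ℓ z ^ d :=
      h1.trans (mul_le_mul_of_nonneg_left (pow_le_pow_left₀ (norm_nonneg _) h3 d) hC.le)
    have h5 : 0 < ℓ z := by linarith [hℓ1 (z : G)]
    have h6 := Real.log_le_log h2 h4
    rw [Real.log_mul hC.ne' (by positivity), Real.log_pow] at h6
    show Real.log ‖LinearMap.det (R z)‖ ≤ d * Real.log (ℓ z) + c0
    have h7 := le_abs_self (Real.log C)
    linarith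
  have hinvφ : ∀ z, φ z⁻¹ = - φ z := by
    intro z
    have h1 := hφ z z⁻¹
    have h2 : φ 1 = 0 := by
      have := hφ 1 1
      rw [mul_one] at this
      linarith
    rw [mul_inv_cancel, h2] at h1
    linarith
  have hφL : ∀ z : Subgroup.centralizer {g}, |φ z| ≤ L z := by
    intro z
    rw [abs_le]
    refine ⟨?_, hupper z⟩
    have h1 := hupper z⁻¹
    rw [hinvφ] at h1
    have h2 : L ((z⁻¹ : Subgroup.centralizer {g}) : G) = L z := by
      show d * Real.log (ℓ ((z : G)⁻¹)) + c0 = d * Real.log (ℓ z) + c0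
      have : ℓ ((z : G)⁻¹) = ℓ z := by
        show max _ _ = max _ _
        rw [inv_inv, max_comm]
      rw [this]
    linarith
  refine good_of_hom φ hφ L hL hφL ?_
  -- the value at `g`
  have hRg : R ⟨g, Subgroup.mem_centralizer_singleton_iff.2 rfl⟩ = μ • (1 : E →ₗ[Ω] E) := by
    apply LinearMap.ext
    intro v
    apply Subtype.ext
    exact (hmemE _).1 v.2
  show Real.log ‖LinearMap.det (R ⟨g, _⟩)‖ ≠ 0
  rw [hRg, LinearMap.det_smul, map_one, mul_one, norm_pow, Real.log_pow]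
  have hμ0 : μ ≠ 0 := by
    rintro rfl
    have := hdet0 ⟨g, Subgroup.mem_centralizer_singleton_iff.2 rfl⟩
    rw [hRg, LinearMap.det_smul, zero_pow hdpos.ne', zero_mul] at this
    exact this rfl
  refine mul_ne_zero (by exact_mod_cast hdpos.ne') ?_
  intro hlog
  rcases Real.log_eq_zero.1 hlog with h | h | h
  · exact hμ0 (norm_eq_zero.1 h)
  · exact hμ1 h
  · linarith [norm_nonneg μ]

end

end Vale.Agent.P184
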