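import Vale.Agent.P184.Lin
import Vale.Agent.P184.Fields2

set_option linter.unusedSectionVars false

namespace Vale.Agent.P184

/-- Linear representations of countable groups over arbitrary fields. -/
theorem good_of_linear {G : Type*} [Group G] [Countable G] {L : Type*} [Field L] {n : ℕ}
    (ρ : G →* Matrix (Fin n) (Fin n) L) {g : G} (a : L) (ha : (ρ g).charpoly.IsRoot a)
    (hroot : ∀ m : ℕ, 0 < m → a ^ m ≠ 1) : Good g := by
  classical
  let S : Set L := insert a (Set.range fun t : G × Fin n × Fin n => ρ t.1 t.2.1 t.2.2)
  have hS : S.Countable := (Set.countable_range _).insert a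
  let K := Subfield.closure S
  have hK : Countable K := by
    rw [← Cardinal.mk_le_aleph0_iff]
    refine (Subfield.cardinalMk_closure_le_max S).trans (max_le ?_ le_rfl)
    have : Countable S := hS
    exact Cardinal.mk_le_aleph0_iff.2 this
  have haK : a ∈ K := Subfield.subset_closure (Set.mem_insert _ _)
  have hentry : ∀ x i j, ρ x i j ∈ K := fun x i j =>
    Subfield.subset_closure (Set.mem_insert_of_mem _ ⟨(x, i, j), rfl⟩)
  let ρK : G →* Matrix (Fin n) (Fin n) K :=
    { toFun := fun x => Matrix.of fun i j => ⟨ρ x i j, hentry x i j⟩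
      map_one' := by
        ext i j
        show ρ 1 i j = ((1 : Matrix (Fin n) (Fin n) K) i j : L)
        rw [map_one]
        by_cases hij : i = j
        · subst hij; simp
        · simp [hij]
      map_mul' := by
        intro x y
        ext i j
        show ρ (x * y) i j = _
        rw [map_mul, Matrix.mul_apply, Matrix.mul_apply]
        push_cast
        rfl }
  have hρK : ∀ x, (ρK x).map (algebraMap K L) = ρ x := by
    intro x; ext i j; rfl
  let aK : K := ⟨a, haK⟩
  have haKroot : (ρK g).charpoly.IsRoot aK := by
    have h1 : ((ρK g).map (algebraMap K L)).charpoly.IsRoot (algebraMap K L aK) := by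
      rw [hρK]; exact ha
    have h2 : ((ρK g).map (algebraMap K L)).charpoly = (ρK g).charpoly.map (algebraMap K L) :=
      Matrix.charpoly_map (ρK g) (algebraMap K L)
    rw [h2] at h1
    exact (Polynomial.isRoot_map_iff (algebraMap K L).injective).1 h1
  have haK0 : aK ≠ 0 := by
    intro h0
    have h1 : (ρK g).det = 0 := by
      have h2 := Matrix.det_eq_sign_charpoly_coeff (ρK g)
      rw [h0] at haKroot
      have h3 : (ρK g).charpoly.coeff 0 = 0 := by
        rw [Polynomial.coeff_zero_eq_eval_zero]; exact haKroot
      rw [h2, h3, mul_zero]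
    have h4 : (ρK g).det * (ρK g⁻¹).det = 1 := by
      rw [← Matrix.det_mul, ← map_mul, mul_inv_cancel, map_one, Matrix.det_one]
    rw [h1, zero_mul] at h4
    exact zero_ne_one h4
  have haK1 : ∀ m : ℕ, 0 < m → aK ^ m ≠ 1 := by
    intro m hm h
    refine hroot m hm ?_
    exact congrArg Subtype.val h
  obtain ⟨Ω, hΩ, σ, hσ⟩ := exists_norm_ne_one K aK haK0 haK1
  let ρΩ : G →* Matrix (Fin n) (Fin n) Ω :=
    (σ.mapMatrix : Matrix (Fin n) (Fin n) K →+* Matrix (Fin n) (Fin n) Ω).toMonoidHom.comp ρK
  let ρ' : G →* Matrix.GeneralLinearGroup (Fin n) Ω := ρΩ.toHomUnits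
  refine good_of_norm_eigenvalue ρ' (g := g) (μ := σ aK) ?_ hσ
  rw [Module.End.hasEigenvalue_iff_isRoot_charpoly, Matrix.charpoly_toLin']
  have h5 : ((ρ' g : Matrix.GeneralLinearGroup (Fin n) Ω) : Matrix (Fin n) (Fin n) Ω) = (ρK g).map σ := rfl
  rw [h5]
  have h6 : ((ρK g).map σ).charpoly = (ρK g).charpoly.map σ := Matrix.charpoly_map (ρK g) σ
  rw [h6]
  exact (Polynomial.isRoot_map_iff σ.injective).2 haKroot

/-! ### Reduction to countable subgroups -/

section reduction

variable {G : Type*} [Group G] {q : ℕ}

lemma isIdem_restrict {e : Fin q → Fin q → G → ℂ} (he : IsIdem q e) (H : Subgroup G)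
    (hH : ∀ i j x, e i j x ≠ 0 → x ∈ H) : IsIdem q (fun i j (h : H) => e i j h) := by
  refine ⟨fun i j => (he.summable i j).comp_injective Subtype.val_injective, ?_⟩
  intro i j g
  rw [← he.mul_self i j g]
  refine Finset.sum_congr rfl fun k _ => ?_
  have h1 : ∑' h : G, e i k h * e k j (h⁻¹ * g) = ∑' h : H, e i k h * e k j ((h : G)⁻¹ * g) := by
    symm
    refine tsum_subtype_eq_of_support_subset (s := (H : Set G))
      (f := fun h : G => e i k h * e k j (h⁻¹ * g)) ?_
    intro x hx
    exact hH i k x (left_ne_zero_of_mul hx)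
  rw [h1]
  rfl

theorem coeff_eq_zero_of_countable {g : G}
    (hg : ∀ (H : Subgroup G), Countable H → ∀ h : H, IsConj g (h : G) → Good h)
    {e : Fin q → Fin q → G → ℂ} (he : IsIdem q e) : coeff e g = 0 := by
  classical
  -- the subgroup generated by the support
  let S : Set G := ⋃ (i : Fin q), ⋃ (j : Fin q), Function.support (e i j)
  have hS : S.Countable := by
    refine Set.countable_iUnion fun i => Set.countable_iUnion fun j => ?_
    have := (he.summable i j).of_norm.countable_support
    exact this
  let H := Subgroup.closure S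
  have hHc : Countable H := by
    have : Countable S := hS
    rw [show H = _ from FreeGroup.closure_eq_range S]
    exact (Set.countable_range (FreeGroup.lift ((↑) : S → G))).to_subtype
  have hmem : ∀ i j x, e i j x ≠ 0 → x ∈ H := fun i j x hx =>
    Subgroup.subset_closure (Set.mem_iUnion.2 ⟨i, Set.mem_iUnion.2 ⟨j, hx⟩⟩)
  have heH := isIdem_restrict he H hmem
  -- the sum over the class as a sum over `H`
  let f : G → ℂ := Set.indicator {x | IsConj g x} fun x => ∑ i, e i i x
  have hf : coeff e g = ∑' h : H, f h := by
    have h1 : coeff e g = ∑' x : G, f x := tsum_subtype {x | IsConj g x} fun x => ∑ i, e i i x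
    rw [h1]
    symm
    refine tsum_subtype_eq_of_support_subset (s := (H : Set G)) ?_
    intro x hx
    have h2 : ∑ i, e i i x ≠ 0 := by
      intro h0
      apply hx
      by_cases hx' : x ∈ {x | IsConj g x}
      · simp only [f, Set.indicator_of_mem hx', h0]
      · simp only [f, Set.indicator_of_notMem hx']
    obtain ⟨i, _, hi⟩ := Finset.exists_ne_zero_of_sum_ne_zero h2
    exact hmem i i x hi
  have hsum : Summable fun h : H => f h := by
    have h1 : Summable f := by
      refine Summable.indicator ?_ _
      exact summable_sum fun i _ => (he.summable i i).of_norm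
    exact h1.comp_injective Subtype.val_injective
  rw [hf]
  have h2 := (hsum.hasSum.tsum_fiberwise (fun h : H => ConjClasses.mk h)).tsum_eq
  rw [← h2]
  have h3 : ∀ c : ConjClasses H, ∑' b : (fun h : H => ConjClasses.mk h) ⁻¹' {c}, f ((b : H) : G) = 0 := by
    intro c
    obtain ⟨h, rfl⟩ := ConjClasses.exists_rep c
    · by_cases hconj : IsConj g (h : G)
      · have h4 := (hg H hHc h hconj).coeff_eq_zero heH
        rw [← h4]
        have hset : ((fun h : H => ConjClasses.mk h) ⁻¹' {ConjClasses.mk h}) = {x : H | IsConj h x} := by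
          ext x
          simp only [Set.mem_preimage, Set.mem_singleton_iff, ConjClasses.mk_eq_mk_iff_isConj]
          exact isConj_comm
        rw [hset]
        refine tsum_congr fun x => ?_
        have hx : IsConj g ((x : H) : G) := by
          have h5 : IsConj (h : G) ((x : H) : G) := (H.subtype).map_isConj x.2
          exact hconj.trans h5
        show Set.indicator {x | IsConj g x} (fun x => ∑ i, e i i x) ((x : H) : G) = _
        rw [Set.indicator_of_mem (show ((x : H) : G) ∈ {x | IsConj g x} from hx)]
      · have h6 : ∀ b : (fun h : H => ConjClasses.mk h) ⁻¹' {ConjClasses.mk h}, f ((b : H) : G) = 0 := by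
          intro b
          have hb : IsConj (b : H) h := by
            have := b.2
            simp only [Set.mem_preimage, Set.mem_singleton_iff, ConjClasses.mk_eq_mk_iff_isConj] at this
            exact this
          have hb' : IsConj ((b : H) : G) (h : G) := (H.subtype).map_isConj hb
          have : ((b : H) : G) ∉ {x | IsConj g x} := fun hgb => hconj (IsConj.trans hgb hb')
          show Set.indicator {x | IsConj g x} (fun x => ∑ i, e i i x) ((b : H) : G) = 0
          rw [Set.indicator_of_notMem this]
        simp_rw [h6]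
        exact tsum_zero
  simp_rw [h3]
  exact tsum_zero

end reduction

/-- Trace coefficients at elements with an eigenvalue which is not a root of unity vanish, for every
finite-dimensional linear representation over any field. -/
theorem coeff_eq_zero_of_linear {G : Type*} [Group G] {L : Type*} [Field L] {n : ℕ}
    (ρ : G →* Matrix (Fin n) (Fin n) L) {g : G} (a : L) (ha : (ρ g).charpoly.IsRoot a)
    (hroot : ∀ m : ℕ, 0 < m → a ^ m ≠ 1) {q : ℕ} {e : Fin q → Fin q → G → ℂ} (he : IsIdem q e) :
    coeff e g = 0 := by
  refine coeff_eq_zero_of_countable ?_ he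
  intro H hH h hconj
  refine good_of_linear (ρ.comp H.subtype) a ?_ hroot
  obtain ⟨c, hc⟩ := isConj_iff.1 hconj
  have h2 : (ρ (h : G)).charpoly = (ρ g).charpoly := by
    have hinv' : ρ c⁻¹ * ρ c = 1 := by rw [← map_mul, inv_mul_cancel, map_one]
    have h1 : ρ (h : G) = ρ c * ρ g * ρ c⁻¹ := by rw [← hc, map_mul, map_mul]
    rw [h1, Matrix.charpoly_mul_comm, ← mul_assoc, hinv', one_mul]
  show (ρ (h : G)).charpoly.IsRoot a
  rw [h2]
  exact ha

end Vale.Agent.P184
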