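import Vale.Agent.P184.Core

open scoped ENNReal NNReal

set_option linter.unusedSectionVars false

namespace Vale.Agent.P184

variable {G : Type*} [Group G] {M : Type*} [NormedRing M] [CompleteSpace M]

open Classical in
/-- a chosen conjugator -/
noncomputable def kap (g x : G) : G := if h : ∃ k, k⁻¹ * g * k = x then h.choose else 1

lemma kap_spec {g x : G} (h : ∃ k, k⁻¹ * g * k = x) : (kap g x)⁻¹ * g * kap g x = x := by
  unfold kap
  rw [dif_pos h]
  exact h.choose_spec

lemma inv_kap {g : G} {a : G → G → M} (ha : a ∈ K (Subgroup.centralizer {g}) M) {x k : G}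
    (hk : k⁻¹ * g * k = x) (y : G) : a y k = a y (kap g x) := by
  have hs := kap_spec ⟨k, hk⟩
  have hz : k * (kap g x)⁻¹ ∈ Subgroup.centralizer {g} := by
    rw [Subgroup.mem_centralizer_singleton_iff]
    have h1 : g * k = k * x := by rw [← hk]; group
    have h3 : (kap g x)⁻¹ * g = x * (kap g x)⁻¹ := by
      rw [eq_mul_inv_iff_mul_eq, hs]
    rw [mul_assoc, h3, ← mul_assoc, ← h1, mul_assoc]
  have := ha.2 _ hz y (kap g x)
  rw [inv_mul_cancel_right] at this
  exact this

/-- membership in the conjugacy class of `g` -/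
def InC (g x : G) : Prop := ∃ k, k⁻¹ * g * k = x

lemma inC_comm {g u v : G} : InC g (u * v) ↔ InC g (v * u) := by
  constructor
  · rintro ⟨k, hk⟩
    refine ⟨k * u, ?_⟩
    have : (k * u)⁻¹ * g * (k * u) = u⁻¹ * (k⁻¹ * g * k) * u := by group
    rw [this, hk]; group
  · rintro ⟨k, hk⟩
    refine ⟨k * v, ?_⟩
    have : (k * v)⁻¹ * g * (k * v) = v⁻¹ * (k⁻¹ * g * k) * v := by group
    rw [this, hk]; group

variable (tr : M →+ ℂ)

/-- The trace attached to a conjugacy class. -/
noncomputable def T (g : G) (a : G → G → M) : ℂ :=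
  ∑' x, Set.indicator {x | InC g x} (fun x => tr (a x (kap g x))) x

lemma ind_le {c : ℝ≥0} (hc : ∀ x, ‖tr x‖ₑ ≤ c * ‖x‖ₑ) (g : G) (a : G → G → M) (x : G) :
    ‖Set.indicator {x | InC g x} (fun x => tr (a x (kap g x))) x‖ₑ ≤ c * ⨆ k, ‖a x k‖ₑ := by
  by_cases h : x ∈ {x | InC g x}
  · rw [Set.indicator_of_mem h]
    exact (hc _).trans (mul_le_mul' le_rfl (le_sup a _ _))
  · rw [Set.indicator_of_notMem h]
    simp

lemma summable_T {c : ℝ≥0} (hc : ∀ x, ‖tr x‖ₑ ≤ c * ‖x‖ₑ) (g : G) {a : G → G → M} (ha : N a ≠ ∞) :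
    Summable fun x => Set.indicator {x | InC g x} (fun x => tr (a x (kap g x))) x := by
  refine Summable.of_enorm (ne_top_of_le_ne_top (ENNReal.mul_ne_top (ENNReal.coe_ne_top (r := c)) ha) ?_)
  unfold N
  rw [← ENNReal.tsum_mul_left]
  exact ENNReal.tsum_le_tsum fun x => ind_le tr hc g a x

lemma T_le {c : ℝ≥0} (hc : ∀ x, ‖tr x‖ₑ ≤ c * ‖x‖ₑ) (g : G) (a : G → G → M) :
    ‖T tr g a‖ₑ ≤ c * N a := by
  unfold T N
  refine enorm_tsum_le_tsum_enorm.trans ?_
  rw [← ENNReal.tsum_mul_left]
  exact ENNReal.tsum_le_tsum fun x => ind_le tr hc g a x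

/-- The trace as an additive map on invariant kernels. -/
noncomputable def TK {c : ℝ≥0} (hc : ∀ x, ‖tr x‖ₑ ≤ c * ‖x‖ₑ) (g : G) :
    K (Subgroup.centralizer {g}) M →+ ℂ where
  toFun a := T tr g a.1
  map_zero' := by simp [T]
  map_add' a b := by
    unfold T
    rw [← (summable_T tr hc g a.2.1).tsum_add (summable_T tr hc g b.2.1)]
    refine tsum_congr fun x => ?_
    by_cases hx : x ∈ {x | InC g x}
    · rw [Set.indicator_of_mem hx, Set.indicator_of_mem hx, Set.indicator_of_mem hx]
      simp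
    · rw [Set.indicator_of_notMem hx, Set.indicator_of_notMem hx, Set.indicator_of_notMem hx]
      simp

lemma T_kmul {c : ℝ≥0} (hc : ∀ x, ‖tr x‖ₑ ≤ c * ‖x‖ₑ) (htr : Continuous tr) {g : G} {a b : G → G → M}
    (ha : a ∈ K (Subgroup.centralizer {g}) M) (hb : b ∈ K (Subgroup.centralizer {g}) M) :
    T tr g (kmul a b) = ∑' p : G × G, Set.indicator {p : G × G | InC g (p.1 * p.2)}
      (fun p => tr (a p.1 (kap g (p.1 * p.2)) * b p.2 (kap g (p.2 * p.1)))) p := by
  -- rewrite as a double sum over `x, y`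
  let F : G → G → ℂ := fun x y => Set.indicator {x | InC g x}
      (fun x => tr (a y (kap g x) * b (y⁻¹ * x) (kap g x * y))) x
  have h1 : T tr g (kmul a b) = ∑' x, ∑' y, F x y := by
    unfold T
    refine tsum_congr fun x => ?_
    by_cases hx : x ∈ {x | InC g x}
    · simp only [F, Set.indicator_of_mem hx]
      unfold kmul
      exact (summable_kmul ha.1 hb.1 x (kap g x)).map_tsum tr htr
    · simp only [F, Set.indicator_of_notMem hx, tsum_zero]
  have hF : Summable (Function.uncurry F) := by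
    refine Summable.of_enorm ?_
    rw [ENNReal.tsum_prod']
    refine ne_top_of_le_ne_top (ENNReal.mul_ne_top (ENNReal.coe_ne_top (r := c))
      (ENNReal.mul_ne_top ha.1 hb.1)) ?_
    unfold N
    rw [← tsum_conv, ← ENNReal.tsum_mul_left]
    refine ENNReal.tsum_le_tsum fun x => ?_
    rw [← ENNReal.tsum_mul_left]
    refine ENNReal.tsum_le_tsum fun y => ?_
    simp only [Function.uncurry, F]
    by_cases hx : x ∈ {x | InC g x}
    · rw [Set.indicator_of_mem hx]
      refine (hc _).trans (mul_le_mul' le_rfl ?_)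
      exact (enorm_mul_le'' _ _).trans (mul_le_mul' (le_sup a _ _) (le_sup b _ _))
    · rw [Set.indicator_of_notMem hx]
      simp
  have h2 : ∑' x, ∑' y, F x y = ∑' p : G × G, Function.uncurry F p := (hF.tsum_prod).symm
  rw [h1, h2]
  -- change variables (x, y) = (u v, u)
  let e : G × G ≃ G × G :=
    { toFun := fun p => (p.1 * p.2, p.1)
      invFun := fun p => (p.2, p.2⁻¹ * p.1)
      left_inv := fun p => by simp
      right_inv := fun p => by simp }
  rw [← e.tsum_eq]
  refine tsum_congr fun p => ?_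
  obtain ⟨u, v⟩ := p
  simp only [e, Equiv.coe_fn_mk, Function.uncurry, F]
  by_cases h : InC g (u * v)
  · rw [Set.indicator_of_mem (show u * v ∈ {x | InC g x} from h),
      Set.indicator_of_mem (show (u, v) ∈ {p : G × G | InC g (p.1 * p.2)} from h),
      inv_mul_cancel_left]
    have hs := kap_spec h
    have h2 : (kap g (u * v) * u)⁻¹ * g * (kap g (u * v) * u) = v * u := by
      have : (kap g (u * v) * u)⁻¹ * g * (kap g (u * v) * u)
        = u⁻¹ * ((kap g (u * v))⁻¹ * g * (kap g (u * v))) * u := by group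
      rw [this, hs]; group
    rw [inv_kap hb h2]
  · rw [Set.indicator_of_notMem (show u * v ∉ {x | InC g x} from h),
      Set.indicator_of_notMem (show (u, v) ∉ {p : G × G | InC g (p.1 * p.2)} from h)]

lemma T_comm {c : ℝ≥0} (hc : ∀ x, ‖tr x‖ₑ ≤ c * ‖x‖ₑ) (htr : Continuous tr)
    (hcomm : ∀ x y, tr (x * y) = tr (y * x)) {g : G} {a b : G → G → M}
    (ha : a ∈ K (Subgroup.centralizer {g}) M) (hb : b ∈ K (Subgroup.centralizer {g}) M) :
    T tr g (kmul a b) = T tr g (kmul b a) := by
  rw [T_kmul tr hc htr ha hb, T_kmul tr hc htr hb ha, ← (Equiv.prodComm G G).tsum_eq]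
  refine tsum_congr fun p => ?_
  obtain ⟨u, v⟩ := p
  simp only [Equiv.prodComm_apply, Prod.swap_prod_mk]
  by_cases h : InC g (v * u)
  · rw [Set.indicator_of_mem (show (v, u) ∈ {p : G × G | InC g (p.1 * p.2)} from h),
      Set.indicator_of_mem (show (u, v) ∈ {p : G × G | InC g (p.1 * p.2)} from inC_comm.1 h), hcomm]
  · rw [Set.indicator_of_notMem (show (v, u) ∉ {p : G × G | InC g (p.1 * p.2)} from h),
      Set.indicator_of_notMem (show (u, v) ∉ {p : G × G | InC g (p.1 * p.2)} from
        fun h' => h (inC_comm.1 h'))]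

/-- Two invariant idempotent kernels whose difference has size less than one have the same trace. -/
theorem T_eq_of_close {c : ℝ≥0} (hc : ∀ x, ‖tr x‖ₑ ≤ c * ‖x‖ₑ) (htr : Continuous tr)
    (hcomm : ∀ x y, tr (x * y) = tr (y * x)) {g : G} {p q : G → G → M}
    (hp : p ∈ K (Subgroup.centralizer {g}) M) (hq : q ∈ K (Subgroup.centralizer {g}) M)
    (hpp : kmul p p = p) (hqq : kmul q q = q) (hpq : N (p - q) < 1) :
    T tr g p = T tr g q := by
  classical
  let P : K (Subgroup.centralizer {g}) M := ⟨p, hp⟩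
  let Q : K (Subgroup.centralizer {g}) M := ⟨q, hq⟩
  have hP : P * P = P := Subtype.ext hpp
  have hQ : Q * Q = Q := Subtype.ext hqq
  have key := trace_pow (TK tr hc g) (fun a b => T_comm tr hc htr hcomm a.2 b.2) P Q hP hQ
  have hN : ∀ n : ℕ, N (((P - Q) * ((P - Q) * (P - Q)) ^ n : K (Subgroup.centralizer {g}) M) : G → G → M)
      ≤ N (p - q) * (N (p - q)) ^ (2 * n) := by
    intro n
    induction n with
    | zero => simp [P, Q]
    | succ n ih =>
      rw [pow_succ, ← mul_assoc]
      refine (N_kmul_le _ _).trans ?_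
      have : N (((P - Q) * (P - Q) : K (Subgroup.centralizer {g}) M) : G → G → M) ≤
        N (p - q) * N (p - q) := N_kmul_le _ _
      refine (mul_le_mul' ih this).trans ?_
      rw [mul_add, mul_one, pow_add, mul_assoc, pow_two]
  have hbound : ∀ n : ℕ, ‖T tr g p - T tr g q‖ₑ ≤ c * (N (p - q)) ^ (2 * n + 1) := by
    intro n
    have h1 : T tr g p - T tr g q = TK tr hc g (P - Q) := by
      rw [map_sub]; rfl
    rw [h1, ← key n]
    refine (T_le tr hc g _).trans (mul_le_mul' le_rfl ?_)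
    refine (hN n).trans ?_
    rw [pow_succ, mul_comm]
  have hlim : Filter.Tendsto (fun n : ℕ => (c : ℝ≥0∞) * (N (p - q)) ^ (2 * n + 1)) Filter.atTop
      (nhds (c * 0)) := by
    refine ENNReal.Tendsto.const_mul ?_ (Or.inr ENNReal.coe_ne_top)
    have h0 := ENNReal.tendsto_pow_atTop_nhds_zero_of_lt_one hpq
    refine h0.comp ?_
    exact Filter.tendsto_atTop_mono (fun n => (by simp only [id]; omega : id n ≤ 2 * n + 1)) Filter.tendsto_id
  rw [mul_zero] at hlim
  have : ‖T tr g p - T tr g q‖ₑ ≤ 0 := ge_of_tendsto' hlim hbound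
  have h0 : T tr g p - T tr g q = 0 := by
    simpa using this
  exact sub_eq_zero.1 h0

end Vale.Agent.P184
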